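import Mathlib

/-!
# P298, block LG: a discrete valuation ring with residue field `ℂ` embeds in `ℂ[[s]]`
-/

open PowerSeries Polynomial

noncomputable section

namespace Vale.Agent.P298.H137

section DVR

variable {V : Type*} [CommRing V] [Algebra ℂ V]

/-- `f` is the `π`-adic expansion of `x` -/
def Exp (π x : V) (f : PowerSeries ℂ) : Prop :=
  ∀ n : ℕ, π ^ n ∣ x - Polynomial.aeval π (PowerSeries.trunc n f)

theorem Exp.add {π x y : V} {f g : PowerSeries ℂ} (hx : Exp π x f) (hy : Exp π y g) :
    Exp π (x + y) (f + g) := by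
  intro n
  have h : x + y - Polynomial.aeval π (PowerSeries.trunc n (f + g)) =
      (x - Polynomial.aeval π (PowerSeries.trunc n f)) +
        (y - Polynomial.aeval π (PowerSeries.trunc n g)) := by
    rw [map_add, map_add]; ring
  rw [h]
  exact dvd_add (hx n) (hy n)

theorem Exp.neg {π x : V} {f : PowerSeries ℂ} (hx : Exp π x f) : Exp π (-x) (-f) := by
  intro n
  have h : -x - Polynomial.aeval π (PowerSeries.trunc n (-f)) =
      -(x - Polynomial.aeval π (PowerSeries.trunc n f)) := by
    have h1 : PowerSeries.trunc n (-f) = -PowerSeries.trunc n f := by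
      ext i; simp [PowerSeries.coeff_trunc]
    rw [h1, map_neg]; ring
  rw [h]
  exact (dvd_neg).2 (hx n)

theorem Exp.mul {π x y : V} {f g : PowerSeries ℂ} (hx : Exp π x f) (hy : Exp π y g) :
    Exp π (x * y) (f * g) := by
  intro n
  have h1 : (Polynomial.X : ℂ[X]) ^ n ∣ PowerSeries.trunc n (f * g) -
      PowerSeries.trunc n f * PowerSeries.trunc n g := by
    rw [Polynomial.X_pow_dvd_iff]
    intro d hd
    rw [Polynomial.coeff_sub, PowerSeries.coeff_trunc, if_pos hd, Polynomial.coeff_mul,
      PowerSeries.coeff_mul, sub_eq_zero]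
    refine Finset.sum_congr rfl fun p hp => ?_
    have h2 := Finset.HasAntidiagonal.mem_antidiagonal.1 hp
    rw [PowerSeries.coeff_trunc, PowerSeries.coeff_trunc, if_pos (by omega), if_pos (by omega)]
  obtain ⟨q, hq⟩ := h1
  have h3 : π ^ n ∣ Polynomial.aeval π (PowerSeries.trunc n (f * g)) -
      Polynomial.aeval π (PowerSeries.trunc n f) * Polynomial.aeval π (PowerSeries.trunc n g) := by
    rw [← map_mul, ← map_sub, hq, map_mul, map_pow, Polynomial.aeval_X]
    exact dvd_mul_right _ _
  obtain ⟨a, ha⟩ := hx n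
  obtain ⟨b, hb⟩ := hy n
  obtain ⟨c, hc⟩ := h3
  refine ⟨a * y + Polynomial.aeval π (PowerSeries.trunc n f) * b - c, ?_⟩
  linear_combination y * ha + Polynomial.aeval π (PowerSeries.trunc n f) * hb - hc

theorem Exp.const (π : V) (c : ℂ) : Exp π (algebraMap ℂ V c) (PowerSeries.C c) := by
  intro n
  cases n with
  | zero => simp
  | succ n =>
    have h : PowerSeries.trunc (n + 1) (PowerSeries.C c) = Polynomial.C c := by
      ext i
      rw [PowerSeries.coeff_trunc, PowerSeries.coeff_C, Polynomial.coeff_C]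
      split_ifs with h1 h2 h2
      · rfl
      · rfl
      · omega
      · rfl
    rw [h, Polynomial.aeval_C, sub_self]
    exact dvd_zero _

theorem Exp.self (π : V) : Exp π π PowerSeries.X := by
  intro n
  rcases n with _ | _ | n
  · simp
  · have h : PowerSeries.trunc (0 + 1) (PowerSeries.X : PowerSeries ℂ) = 0 := by
      ext i
      rw [PowerSeries.coeff_trunc, PowerSeries.coeff_X]
      split_ifs with h1 h2
      · omega
      · simp
      · simp
    rw [h]
    simp
  · have h : PowerSeries.trunc (n + 1 + 1) (PowerSeries.X : PowerSeries ℂ) = Polynomial.X := by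
      ext i
      rw [PowerSeries.coeff_trunc, PowerSeries.coeff_X, Polynomial.coeff_X]
      split_ifs with h1 h2 h3 h3
      · rfl
      · omega
      · omega
      · rfl
      · omega
      · rfl
    rw [h, Polynomial.aeval_X, sub_self]
    exact dvd_zero _

theorem Exp.eq_zero [IsDomain V] {π : V} (hπ0 : π ≠ 0) (hπ : ¬ IsUnit π) {f : PowerSeries ℂ} (h : Exp π 0 f) :
    f = 0 := by
  by_contra hf
  have hex : ∃ n, PowerSeries.coeff n f ≠ 0 := by
    by_contra hall
    push Not at hall
    exact hf (PowerSeries.ext fun n => by simpa using hall n)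
  classical
  set i := Nat.find hex with hi
  have h1 : PowerSeries.coeff i f ≠ 0 := Nat.find_spec hex
  have h2 : ∀ j < i, PowerSeries.coeff j f = 0 := fun j hj => by
    by_contra h3
    exact Nat.find_min hex hj h3
  have h3 : PowerSeries.trunc (i + 1) f = Polynomial.C (PowerSeries.coeff i f) * Polynomial.X ^ i := by
    ext j
    rw [PowerSeries.coeff_trunc, Polynomial.coeff_C_mul_X_pow]
    split_ifs with h4 h5 h5
    · rw [h5]
    · exact h2 j (by omega)
    · omega
    · rfl
  have h4 := h (i + 1)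
  rw [h3, map_mul, map_pow, Polynomial.aeval_X, Polynomial.aeval_C, zero_sub, dvd_neg, pow_succ,
    mul_comm (algebraMap ℂ V _)] at h4
  have h5 : π ∣ algebraMap ℂ V (PowerSeries.coeff i f) :=
    (mul_dvd_mul_iff_left (pow_ne_zero i hπ0)).1 h4
  exact hπ (isUnit_of_dvd_unit h5 ((isUnit_iff_ne_zero.2 h1).map (algebraMap ℂ V)))

theorem Exp.unique [IsDomain V] {π x : V} (hπ0 : π ≠ 0) (hπ : ¬ IsUnit π) {f g : PowerSeries ℂ}
    (hf : Exp π x f) (hg : Exp π x g) : f = g := by
  have h := hf.add hg.neg
  rw [add_neg_cancel] at h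
  have h1 := h.eq_zero hπ0 hπ
  rwa [← sub_eq_add_neg, sub_eq_zero] at h1

theorem Exp.exists {π : V} (hdig : ∀ x : V, ∃ (a : ℂ) (y : V), x = algebraMap ℂ V a + π * y)
    (x : V) : ∃ f, Exp π x f := by
  choose a y hay using hdig
  let xs : ℕ → V := fun n => Nat.rec x (fun _ z => y z) n
  have hxs : ∀ n, xs (n + 1) = y (xs n) := fun n => rfl
  refine ⟨PowerSeries.mk fun n => a (xs n), fun n => ⟨xs n, ?_⟩⟩
  induction n with
  | zero => simp [xs]
  | succ n ih =>
    have h1 : PowerSeries.trunc (n + 1) (PowerSeries.mk fun n => a (xs n)) =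
        PowerSeries.trunc n (PowerSeries.mk fun n => a (xs n)) +
          Polynomial.C (a (xs n)) * Polynomial.X ^ n := by
      rw [PowerSeries.trunc_succ, PowerSeries.coeff_mk, Polynomial.C_mul_X_pow_eq_monomial]
    rw [h1, map_add, map_mul, map_pow, Polynomial.aeval_X, Polynomial.aeval_C]
    have h2 := hay (xs n)
    rw [← hxs] at h2
    rw [pow_succ]
    linear_combination ih + π ^ n * h2

/-- The embedding. -/
theorem exists_embedding [IsDomain V] {π : V} (hπ0 : π ≠ 0) (hπ : ¬ IsUnit π)
    (hdig : ∀ x : V, ∃ (a : ℂ) (y : V), x = algebraMap ℂ V a + π * y) :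
    ∃ φ : V →+* PowerSeries ℂ, (∀ c, φ (algebraMap ℂ V c) = PowerSeries.C c) ∧
      φ π = PowerSeries.X := by
  choose φ hφ using Exp.exists hdig
  have huniq : ∀ {x f}, Exp π x f → φ x = f := fun h => (hφ _).unique hπ0 hπ h
  have h1 : φ 1 = 1 := huniq (by simpa using Exp.const π 1)
  have h0 : φ 0 = 0 := huniq (by simpa using Exp.const π 0)
  refine ⟨{ toFun := φ, map_one' := h1, map_mul' := fun x y => huniq ((hφ x).mul (hφ y)),
            map_zero' := h0, map_add' := fun x y => huniq ((hφ x).add (hφ y)) },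
    fun c => huniq (Exp.const π c), huniq (Exp.self π)⟩

end DVR

end Vale.Agent.P298.H137
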