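import Vale.Agent.P298.H137.Arc1

/-!
# P298, block LG: divisibility tested on formal arcs, for domains finite over `ℂ[[z]]`
-/

open Polynomial

noncomputable section

namespace Vale.Agent.P298.H137

/-- the ring `ℂ[[z]]` -/
abbrev A1 : Type := PowerSeries ℂ

theorem algebraMap_eq_const {T : Type*} [CommRing T] [Algebra A1 T]
    (hX : algebraMap A1 T PowerSeries.X = 0) (a : A1) :
    algebraMap A1 T a = algebraMap A1 T (PowerSeries.C (PowerSeries.constantCoeff a)) := by
  have h1 : (PowerSeries.X : A1) ∣ a - PowerSeries.C (PowerSeries.constantCoeff a) := by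
    rw [PowerSeries.X_dvd_iff]
    simp
  obtain ⟨b, hb⟩ := h1
  have h2 := congrArg (algebraMap A1 T) hb
  rw [map_sub, map_mul, hX, zero_mul] at h2
  exact sub_eq_zero.1 h2

/-- residue fields are `ℂ` -/
theorem exists_const {T : Type*} [Field T] [Algebra A1 T] [Algebra.IsIntegral A1 T]
    (hX : algebraMap A1 T PowerSeries.X = 0) (x : T) :
    ∃ c : ℂ, x = algebraMap A1 T (PowerSeries.C c) := by
  let _ : Algebra ℂ T := ((algebraMap A1 T).comp (PowerSeries.C (R := ℂ))).toAlgebra
  have hC : ∀ c : ℂ, algebraMap ℂ T c = algebraMap A1 T (PowerSeries.C c) := fun c => rfl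
  have hint : Algebra.IsIntegral ℂ T := by
    refine ⟨fun y => ?_⟩
    obtain ⟨p, hp, hpy⟩ := Algebra.IsIntegral.isIntegral (R := A1) y
    refine ⟨p.map (PowerSeries.constantCoeff (R := ℂ)), hp.map _, ?_⟩
    rw [Polynomial.eval₂_map]
    have h1 : (algebraMap ℂ T).comp (PowerSeries.constantCoeff (R := ℂ)) = algebraMap A1 T := by
      ext a
      rw [RingHom.comp_apply, hC, ← algebraMap_eq_const hX]
    rw [h1]
    exact hpy
  obtain ⟨c, hc⟩ := (IsAlgClosed.algebraMap_bijective_of_isIntegral (k := ℂ) (K := T)).2 x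
  exact ⟨c, by rw [← hc, hC]⟩

section DVR

variable {V : Type*} [CommRing V] [IsDomain V] [IsDiscreteValuationRing V]

theorem dvr_orders {π : V} (hπ : Irreducible π) {φ : V →+* PowerSeries ℂ}
    (hφ : φ π = PowerSeries.X) :
    Function.Injective φ ∧ ∀ x y : V, (φ x).order ≤ (φ y).order → x ∣ y := by
  have hinj : Function.Injective φ := by
    rw [injective_iff_map_eq_zero]
    intro x hx
    by_contra hx0
    obtain ⟨n, u, hu⟩ := IsDiscreteValuationRing.eq_unit_mul_pow_irreducible hx0 hπ
    rw [hu, map_mul, map_pow, hφ] at hx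
    have h1 : IsUnit (φ (u : V)) := u.isUnit.map φ
    rcases mul_eq_zero.1 hx with h | h
    · rw [h] at h1
      exact not_isUnit_zero h1
    · exact pow_ne_zero n PowerSeries.X_ne_zero h
  refine ⟨hinj, fun x y hxy => ?_⟩
  rcases ValuationRing.dvd_total x y with h | ⟨t, ht⟩
  · exact h
  by_cases hy : y = 0
  · rw [hy]; exact dvd_zero _
  by_cases htu : IsUnit t
  · obtain ⟨u, rfl⟩ := htu
    exact ⟨(u⁻¹ : Vˣ), by rw [ht, mul_assoc, Units.mul_inv, mul_one]⟩
  · exfalso
    have h1 : π ∣ t := by
      have h2 : t ∈ IsLocalRing.maximalIdeal V := htu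
      rw [hπ.maximalIdeal_eq] at h2
      exact Ideal.mem_span_singleton.1 h2
    obtain ⟨t', rfl⟩ := h1
    rw [ht, map_mul, map_mul, hφ, PowerSeries.order_mul, PowerSeries.order_mul,
      PowerSeries.order_X] at hxy
    have h3 : (φ y).order ≠ ⊤ := by
      rw [Ne, PowerSeries.order_eq_top]
      intro h
      exact hy (hinj (by rw [h, map_zero]))
    obtain ⟨m, hm⟩ := ENat.ne_top_iff_exists.1 h3
    rw [← hm] at hxy
    have h4 : ((m : ℕ∞)) + 1 ≤ m := by
      refine le_trans ?_ hxy
      exact add_le_add le_rfl (le_add_of_nonneg_right bot_le)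
    have h5 : m + 1 ≤ m := by exact_mod_cast h4
    omega

end DVR

theorem X_mem_maximal {B : Type*} [CommRing B] [Algebra A1 B] [Algebra.IsIntegral A1 B]
    (P : Ideal B) [P.IsMaximal] : algebraMap A1 B PowerSeries.X ∈ P := by
  have h2 : (P.comap (algebraMap A1 B)).IsMaximal :=
    Ideal.isMaximal_comap_of_isIntegral_of_isMaximal P
  have h3 := IsLocalRing.eq_maximalIdeal h2
  have h4 : (PowerSeries.X : A1) ∈ P.comap (algebraMap A1 B) := by
    rw [h3]
    exact PowerSeries.X_prime.not_isUnit
  exact h4

theorem exists_const_sub_mem {B : Type*} [CommRing B] [Algebra A1 B] [Algebra.IsIntegral A1 B]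
    (P : Ideal B) [P.IsMaximal] (b : B) :
    ∃ c : ℂ, b - algebraMap A1 B (PowerSeries.C c) ∈ P := by
  let _ : Field (B ⧸ P) := Ideal.Quotient.field P
  obtain ⟨c, hc⟩ := exists_const (T := B ⧸ P)
    (by
      rw [IsScalarTower.algebraMap_apply A1 B (B ⧸ P)]
      exact Ideal.Quotient.eq_zero_iff_mem.2 (X_mem_maximal P)) (Ideal.Quotient.mk P b)
  refine ⟨c, ?_⟩
  rw [← Ideal.Quotient.eq_zero_iff_mem, map_sub, hc, IsScalarTower.algebraMap_apply A1 B (B ⧸ P)]
  exact sub_self _

/-- the arcs of a Dedekind domain over `ℂ[[z]]` -/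
theorem exists_arc {B : Type*} [CommRing B] [IsDedekindDomain B] [Algebra A1 B]
    [Algebra.IsIntegral A1 B] (hinj : Function.Injective (algebraMap A1 B)) (P : Ideal B)
    [P.IsMaximal] : ∃ φ : B →+* PowerSeries ℂ,
      (∀ c, φ (algebraMap A1 B (PowerSeries.C c)) = PowerSeries.C c) ∧ Function.Injective φ ∧
      PowerSeries.constantCoeff (φ (algebraMap A1 B PowerSeries.X)) = 0 ∧
      ∀ x y, (φ x).order ≤ (φ y).order →
        algebraMap B (Localization.AtPrime P) x ∣ algebraMap B (Localization.AtPrime P) y := by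
  have hXP := X_mem_maximal P
  have hX0 : algebraMap A1 B PowerSeries.X ≠ 0 := by
    intro h
    exact PowerSeries.X_ne_zero (hinj (by rw [h, map_zero]))
  have hP0 : P ≠ ⊥ := by
    intro h
    rw [h, Ideal.mem_bot] at hXP
    exact hX0 hXP
  have hV : IsDiscreteValuationRing (Localization.AtPrime P) :=
    IsLocalization.AtPrime.isDiscreteValuationRing_of_dedekind_domain B hP0 _
  obtain ⟨π, hπ⟩ := IsDiscreteValuationRing.exists_irreducible (Localization.AtPrime P)
  have hBV : Function.Injective (algebraMap B (Localization.AtPrime P)) :=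
    IsLocalization.injective _ P.primeCompl_le_nonZeroDivisors
  have hmem : ∀ b : B, b ∈ P → algebraMap B (Localization.AtPrime P) b ∈
      IsLocalRing.maximalIdeal (Localization.AtPrime P) := fun b hb =>
    (IsLocalization.AtPrime.to_map_mem_maximal_iff _ P b).2 hb
  let _ : Algebra ℂ (Localization.AtPrime P) :=
    ((algebraMap B (Localization.AtPrime P)).comp ((algebraMap A1 B).comp
      (PowerSeries.C (R := ℂ)))).toAlgebra
  have hCV : ∀ c : ℂ, algebraMap ℂ (Localization.AtPrime P) c =
      algebraMap B (Localization.AtPrime P) (algebraMap A1 B (PowerSeries.C c)) := fun c => rfl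
  have hdig : ∀ x : Localization.AtPrime P, ∃ (a : ℂ) (y : Localization.AtPrime P),
      x = algebraMap ℂ (Localization.AtPrime P) a + π * y := by
    intro x
    obtain ⟨b, s, hbs⟩ := IsLocalization.exists_mk'_eq P.primeCompl x
    obtain ⟨cb, hcb⟩ := exists_const_sub_mem P b
    obtain ⟨cs, hcs⟩ := exists_const_sub_mem P (s : B)
    have hcs0 : cs ≠ 0 := by
      rintro rfl
      rw [map_zero, map_zero, sub_zero] at hcs
      exact s.2 hcs
    have h5 : x * algebraMap B (Localization.AtPrime P) (s : B) =
        algebraMap B (Localization.AtPrime P) b := by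
      rw [← hbs]
      exact IsLocalization.mk'_spec _ _ _
    have hsu : IsUnit (algebraMap B (Localization.AtPrime P) (s : B)) :=
      IsLocalization.map_units _ s
    have h6 : x - algebraMap ℂ (Localization.AtPrime P) (cb / cs) ∈
        IsLocalRing.maximalIdeal (Localization.AtPrime P) := by
      have h7 : (x - algebraMap ℂ (Localization.AtPrime P) (cb / cs)) *
          algebraMap B (Localization.AtPrime P) (s : B) ∈
          IsLocalRing.maximalIdeal (Localization.AtPrime P) := by
        have h8 : (x - algebraMap ℂ (Localization.AtPrime P) (cb / cs)) *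
          algebraMap B (Localization.AtPrime P) (s : B) =
          algebraMap B (Localization.AtPrime P) (b - algebraMap A1 B (PowerSeries.C cb)) -
          algebraMap ℂ (Localization.AtPrime P) (cb / cs) *
            algebraMap B (Localization.AtPrime P) ((s : B) - algebraMap A1 B (PowerSeries.C cs)) := by
          rw [sub_mul, h5, map_sub, map_sub, mul_sub, ← hCV, ← hCV, ← map_mul,
            div_mul_cancel₀ _ hcs0]
          ring
        rw [h8]
        exact Ideal.sub_mem _ (hmem _ hcb) (Ideal.mul_mem_left _ _ (hmem _ hcs))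
      rcases (IsLocalRing.maximalIdeal.isMaximal (Localization.AtPrime P)).isPrime.mem_or_mem h7
        with h | h
      · exact h
      · exact absurd hsu h
    rw [hπ.maximalIdeal_eq, Ideal.mem_span_singleton] at h6
    obtain ⟨y, hy⟩ := h6
    exact ⟨cb / cs, y, by rw [← hy]; ring⟩
  obtain ⟨φ, hφC, hφπ⟩ := exists_embedding hπ.ne_zero hπ.not_isUnit hdig
  obtain ⟨hφinj, hφdvd⟩ := dvr_orders hπ hφπ
  refine ⟨φ.comp (algebraMap B (Localization.AtPrime P)), fun c => ?_, hφinj.comp hBV, ?_,
    fun x y hxy => hφdvd _ _ hxy⟩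
  · rw [RingHom.comp_apply, ← hCV, hφC]
  · rw [RingHom.comp_apply]
    have h7 := hmem _ hXP
    rw [hπ.maximalIdeal_eq, Ideal.mem_span_singleton] at h7
    obtain ⟨y, hy⟩ := h7
    rw [hy, map_mul, hφπ, map_mul, PowerSeries.constantCoeff_X, zero_mul]

/-- **Divisibility is tested on formal arcs.** -/
theorem rel_of_domain {R : Type*} [CommRing R] [IsDomain R] [Algebra A1 R] [Module.Finite A1 R]
    (hinj : Function.Injective (algebraMap A1 R)) {h0 h1 : R}
    (H : ∀ φ : R →+* PowerSeries ℂ, (∀ c, φ (algebraMap A1 R (PowerSeries.C c)) = PowerSeries.C c) →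
      Function.Injective φ →
      PowerSeries.constantCoeff (φ (algebraMap A1 R PowerSeries.X)) = 0 →
      (φ h0).order ≤ (φ h1).order) :
    ∃ p : A1[X], p.Monic ∧ ((p.map (algebraMap A1 R)).scaleRoots h0).eval h1 = 0 := by
  classical
  have : FaithfulSMul A1 R := (faithfulSMul_iff_algebraMap_injective A1 R).2 hinj
  have hRL : Function.Injective (algebraMap R (FractionRing R)) := IsFractionRing.injective R _
  have hAL : Function.Injective (algebraMap A1 (FractionRing R)) := by
    rw [IsScalarTower.algebraMap_eq A1 R (FractionRing R)]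
    exact hRL.comp hinj
  have : FaithfulSMul A1 (FractionRing R) :=
    (faithfulSMul_iff_algebraMap_injective A1 _).2 hAL
  let _ : Algebra (FractionRing A1) (FractionRing R) := FractionRing.liftAlgebra A1 (FractionRing R)
  have : FiniteDimensional (FractionRing A1) (FractionRing R) :=
    Module.Finite.of_isLocalization A1 R (nonZeroDivisors A1)
  have : CharZero (FractionRing A1) := charZero_of_injective_algebraMap (R := ℂ)
    (A := FractionRing A1) (algebraMap ℂ (FractionRing A1)).injective
  have : Algebra.IsSeparable (FractionRing A1) (FractionRing R) :=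
    Algebra.IsAlgebraic.isSeparable_of_perfectField
  have : IsDedekindDomain (integralClosure A1 (FractionRing R)) :=
    integralClosure.isDedekindDomain A1 (FractionRing A1) (FractionRing R)
  have hBint : Algebra.IsIntegral A1 (integralClosure A1 (FractionRing R)) :=
    integralClosure.AlgebraIsIntegral
  have hAB : Function.Injective (algebraMap A1 (integralClosure A1 (FractionRing R))) := by
    intro a b hab
    exact hAL (congrArg Subtype.val hab)
  -- the inclusion of `R` in `B`
  have hRint : ∀ r : R, algebraMap R (FractionRing R) r ∈ integralClosure A1 (FractionRing R) :=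
    fun r => (Algebra.IsIntegral.isIntegral (R := A1) r).algebraMap
  let ι : R →+* integralClosure A1 (FractionRing R) :=
    (algebraMap R (FractionRing R)).codRestrict
      (integralClosure A1 (FractionRing R)).toSubring hRint
  have hι : ∀ r : R, ((ι r : integralClosure A1 (FractionRing R)) : FractionRing R) =
      algebraMap R (FractionRing R) r := fun r => rfl
  have hιinj : Function.Injective ι := by
    intro r r' h
    exact hRL (congrArg Subtype.val h)
  have hιA : ∀ a : A1, ι (algebraMap A1 R a) =
      algebraMap A1 (integralClosure A1 (FractionRing R)) a := by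
    intro a
    apply Subtype.ext
    rw [hι, ← IsScalarTower.algebraMap_apply A1 R (FractionRing R)]
    rfl
  clear_value ι
  have hιA' : (algebraMap A1 (integralClosure A1 (FractionRing R))) =
      ι.comp (algebraMap A1 R) := RingHom.ext fun a => (hιA a).symm
  -- the key divisibility
  have hdvd : ι h1 ∈ Ideal.span {ι h0} := by
    refine Ideal.mem_of_localization_maximal fun P hP => ?_
    obtain ⟨φ, hφC, hφinj, hφX, hφdvd⟩ := exists_arc hAB P
    have h6 := H (φ.comp ι) (fun c => by rw [RingHom.comp_apply, hιA, hφC]) (hφinj.comp hιinj)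
      (by rw [RingHom.comp_apply, hιA, hφX])
    have h8 := hφdvd _ _ h6
    rw [Ideal.map_span, Set.image_singleton, Ideal.mem_span_singleton]
    exact h8
  rw [Ideal.mem_span_singleton] at hdvd
  obtain ⟨t, ht⟩ := hdvd
  obtain ⟨p, hp, hpt⟩ := hBint.isIntegral t
  refine ⟨p, hp, ?_⟩
  apply hιinj
  have h2 : Polynomial.eval₂ ι t (p.map (algebraMap A1 R)) = 0 := by
    rw [Polynomial.eval₂_map, ← hιA']
    exact hpt
  have h3 := Polynomial.scaleRoots_eval₂_eq_zero ι (s := h0) h2
  rw [map_zero, Polynomial.eval, Polynomial.hom_eval₂, RingHom.comp_id, ht]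
  exact h3

end Vale.Agent.P298.H137
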