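import Vale.Agent.P298.H766.Col

/-!
# P298: upper semicontinuity of the colength (helper137)
-/

namespace Vale.Agent.P298.H137

open Filter Topology Metric Vale.Agent.P298 Module Vale.Agent.P298.H766

variable {n k : ℕ} {Λ : Type*} [NormedAddCommGroup Λ] [NormedSpace ℂ Λ]

omit [NormedSpace ℂ Λ] in
/-- the rank of finitely many continuous vectors is lower semicontinuous -/
theorem rank_lsc {ι J : Type} [Fintype ι] [Finite J] (U : Λ → J → (ι → ℂ)) (l₀ : Λ)
    (hU : ∀ a, ContinuousAt (fun l => U l a) l₀) :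
    ∀ᶠ l in 𝓝 l₀, finrank ℂ (Submodule.span ℂ (Set.range (U l₀))) ≤
      finrank ℂ (Submodule.span ℂ (Set.range (U l))) := by
  obtain ⟨s, hs, hspan, hli⟩ := exists_linearIndependent ℂ (Set.range (U l₀))
  have hfin : s.Finite := (Set.finite_range (U l₀)).subset hs
  have : Finite s := hfin
  choose g hg using fun x : s => hs x.2
  have hcont : ContinuousAt (fun l => fun x : s => U l (g x)) l₀ :=
    continuousAt_pi.2 fun x => hU (g x)
  have h0 : LinearIndependent ℂ (fun x : s => U l₀ (g x)) := by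
    have : (fun x : s => U l₀ (g x)) = ((↑) : s → (ι → ℂ)) := by
      funext x
      exact hg x
    rw [this]
    exact hli
  have h1 : ∀ᶠ l in 𝓝 l₀, LinearIndependent ℂ (fun x : s => U l (g x)) :=
    hcont.eventually_mem
      (s := {f : s → (ι → ℂ) | LinearIndependent ℂ f})
      (isOpen_setOfPred_linearIndependent.mem_nhds h0)
  filter_upwards [h1] with l hl
  have := Fintype.ofFinite s
  have h2 : finrank ℂ (Submodule.span ℂ (Set.range (U l₀))) = Fintype.card s := by
    rw [← hspan]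
    have := finrank_span_eq_card hli
    rwa [Subtype.range_coe] at this
  have h3 := finrank_span_eq_card hl
  rw [h2, ← h3]
  refine Submodule.finrank_mono (Submodule.span_mono ?_)
  rintro _ ⟨x, rfl⟩
  exact ⟨g x, rfl⟩

theorem le_of_finrank_le (d : ℕ) : ∃ M₀ : ℕ, ∀ M, M₀ < M → ∀ I : Ideal (AnFun n), nul n ≤ I →
    Module.Finite ℂ (AnFun n ⧸ (I ⊔ qM n M)) → finrank ℂ (AnFun n ⧸ (I ⊔ qM n M)) ≤ d →
    qM n M ≤ I := by
  obtain ⟨M₀, hM₀⟩ := exists_mX_pow_le n d
  refine ⟨M₀, fun M hM I hI hfin hrk => ?_⟩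
  have h1 : mX n ^ M₀ ≤ I ⊔ qM n M := by
    refine hM₀.trans (Ideal.span_le.2 ?_)
    rintro _ ⟨i, rfl⟩
    have h2 := coord_pow_mem (I ⊔ qM n M) (hI.trans le_sup_left) hfin (coordF n i)
      (ev0_coordF i)
    rw [← Nat.add_sub_cancel' hrk]
    simp only [pow_add]
    exact Ideal.mul_mem_right _ _ h2
  have h3 : I ⊔ qM n M ≤ I ⊔ mX n ^ (M₀ + 1) := by
    refine sup_le le_sup_left (sup_le (hI.trans le_sup_left) ?_)
    exact (Ideal.pow_le_pow_right hM).trans le_sup_right
  have h4 : mX n ^ M₀ ≤ I := by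
    refine nakayama_aux (nul n) (mX n) I M₀ ?_ hI unit_aux (h1.trans h3)
    classical
    exact ⟨Finset.univ.image (coordF n), by simp [mX]⟩
  exact sup_le hI ((Ideal.pow_le_pow_right hM.le).trans h4)

/-- **Upper semicontinuity of the colength.** -/
theorem colength_usc (l₀ : Λ) (φ : Fin k → (Fin n → ℂ) × Λ → ℂ)
    (hφ : ∀ j, AnalyticAt ℂ (φ j) (0, l₀)) {d : ℕ} (hd : Colength (fun j x => φ j (x, l₀)) d) :
    ∀ᶠ l in 𝓝 l₀, ∃ d' ≤ d, Colength (fun j x => φ j (x, l)) d' := by
  classical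
  have hslice : ∀ l, (∀ j, AnalyticAt ℂ (φ j) (0, l)) →
      ∀ j, AnalyticAt ℂ (fun x : Fin n → ℂ => φ j (x, l)) 0 := by
    intro l hl j
    have h2 : AnalyticAt ℂ (fun x : Fin n → ℂ => (x, l)) 0 :=
      analyticAt_id.prod analyticAt_const
    exact AnalyticAt.fun_comp (g := φ j) (f := fun x : Fin n → ℂ => (x, l)) (hl j) h2
  have hφs : ∀ᶠ l in 𝓝 l₀, ∀ j, AnalyticAt ℂ (fun x : Fin n → ℂ => φ j (x, l)) 0 := by
    have ht : Tendsto (fun l : Λ => ((0 : Fin n → ℂ), l)) (𝓝 l₀) (𝓝 (0, l₀)) :=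
      Continuous.tendsto (by fun_prop) l₀
    filter_upwards [ht.eventually (eventually_all.2 fun j => (hφ j).eventually_analyticAt)]
      with l hl
    exact hslice l hl
  have hd0 : HasColength (Set.range fun j => fun x => φ j (x, l₀)) d :=
    hasColength_of_colength (hslice l₀ hφ) hd
  obtain ⟨M₁, hM₁⟩ := qM_le n d
  obtain ⟨M₂, hM₂⟩ := le_of_finrank_le (n := n) d
  set M := max M₁ M₂ + 1 with hM
  obtain ⟨ι, hι, b, hb⟩ := exists_taylorBasis n M Λ
  have h1 : ∀ q : Fin k × ι, AnalyticAt ℂ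
      (fun p : (Fin n → ℂ) × Λ => (b q.2 : (Fin n → ℂ) → ℂ) p.1 * φ q.1 p) (0, l₀) := by
    intro q
    have h2 : AnalyticAt ℂ (b q.2 : (Fin n → ℂ) → ℂ) ((0 : Fin n → ℂ), l₀).1 := (b q.2).2
    exact (h2.comp analyticAt_fst).mul (hφ q.1)
  choose u hu huC hmem using fun q : Fin k × ι => hb l₀ _ (h1 q)
  set Z := (toQuot b (qM n M)).ker with hZ
  let z : Fin (finrank ℂ Z) → (ι → ℂ) := fun k => (finBasis ℂ Z k : ι → ℂ)
  have hz : ∀ k, combo b (z k) ∈ qM n M := fun k => (toQuot_ker b _ _).mp (finBasis ℂ Z k).2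
  let U : Λ → (Fin k × ι) ⊕ Fin (finrank ℂ Z) → (ι → ℂ) := fun l => Sum.elim (fun q => u q l) z
  have hUc : ∀ a, ContinuousAt (fun l => U l a) l₀ := by
    rintro (q | k)
    · exact continuousAt_pi.mpr fun i => (hu q i).continuousAt
    · exact continuousAt_const
  -- the span of `U l` is the kernel
  have hspan : ∀ᶠ l in 𝓝 l₀, Submodule.span ℂ (Set.range (U l)) =
      (toQuot b (locIdeal (Set.range fun j => fun x => φ j (x, l)) ⊔ qM n M)).ker := by
    filter_upwards [hφs, eventually_all.mpr hmem] with l hl2 hl3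
    set S := Set.range fun j => fun x => φ j (x, l) with hS
    have hgen : ∀ j, (⟨fun x => φ j (x, l), hl2 j⟩ : AnFun n) ∈ locIdeal S := fun j =>
      Ideal.subset_span (Or.inr ⟨j, rfl⟩)
    have hprod : ∀ q : Fin k × ι, b q.2 * (⟨fun x => φ q.1 (x, l), hl2 q.1⟩ : AnFun n) -
        combo b (u q l) ∈ qM n M := by
      intro q
      obtain ⟨h, h'⟩ := hl3 q
      exact h'
    apply le_antisymm
    · refine Submodule.span_le.mpr ?_
      rintro _ ⟨q | k, rfl⟩
      · change u q l ∈ (toQuot b (locIdeal S ⊔ qM n M)).ker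
        rw [toQuot_ker]
        have h6 := (locIdeal S ⊔ qM n M).sub_mem
          (Ideal.mem_sup_left (Ideal.mul_mem_left _ (b q.2) (hgen q.1)))
          (Ideal.mem_sup_right (hprod q))
        rwa [sub_sub_cancel] at h6
      · change z k ∈ (toQuot b (locIdeal S ⊔ qM n M)).ker
        rw [toQuot_ker]
        exact Ideal.mem_sup_right (hz k)
    · intro c hc
      rw [toQuot_ker, Submodule.mem_sup] at hc
      obtain ⟨y1, hy1, y2, hy2, hy12⟩ := hc
      rw [hS, locIdeal_range _ hl2, Submodule.mem_sup] at hy1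
      obtain ⟨y, hy, y', hy', hyy⟩ := hy1
      obtain ⟨h, hh⟩ := (Ideal.mem_span_range_iff_exists_fun).mp hy'
      choose d hd using fun j => taylor_surj l₀ hb (h j)
      set c' : ι → ℂ := ∑ j, ∑ β, d j β • u (j, β) l with hc'
      have hc'1 : combo b c - combo b c' ∈ qM n M := by
        have e1 : combo b c' = ∑ j, ∑ β, d j β • combo b (u (j, β) l) := by
          rw [hc', map_sum]
          refine Finset.sum_congr rfl fun j _ => ?_
          rw [map_sum]
          refine Finset.sum_congr rfl fun β _ => ?_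
          rw [map_smul]
        have e2 : ∀ j, combo b (d j) = ∑ β, d j β • b β := fun j => rfl
        have e3 : ∑ j, combo b (d j) * (⟨fun x => φ j (x, l), hl2 j⟩ : AnFun n) -
            combo b c' ∈ qM n M := by
          rw [e1, ← Finset.sum_sub_distrib]
          refine Ideal.sum_mem _ fun j _ => ?_
          rw [e2, Finset.sum_mul, ← Finset.sum_sub_distrib]
          refine Ideal.sum_mem _ fun β _ => ?_
          rw [smul_mul_assoc, ← smul_sub]
          exact Submodule.smul_of_tower_mem _ _ (hprod (j, β))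
        have e4 : ∑ j, h j * (⟨fun x => φ j (x, l), hl2 j⟩ : AnFun n) -
            ∑ j, combo b (d j) * (⟨fun x => φ j (x, l), hl2 j⟩ : AnFun n) ∈ qM n M := by
          rw [← Finset.sum_sub_distrib]
          refine Ideal.sum_mem _ fun j _ => ?_
          rw [← sub_mul]
          exact Ideal.mul_mem_right _ _ (hd j)
        have e5 := (qM n M).add_mem hy2 ((qM n M).add_mem (Ideal.mem_sup_left hy : y ∈ qM n M)
          ((qM n M).add_mem e4 e3))
        have e6 : y2 + (y + (∑ j, h j * (⟨fun x => φ j (x, l), hl2 j⟩ : AnFun n) -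
            ∑ j, combo b (d j) * (⟨fun x => φ j (x, l), hl2 j⟩ : AnFun n) +
            (∑ j, combo b (d j) * (⟨fun x => φ j (x, l), hl2 j⟩ : AnFun n) - combo b c'))) =
            combo b c - combo b c' := by
          rw [← hy12, ← hyy, ← hh]; ring
        rwa [e6] at e5
      have hc'2 : c - c' ∈ Z := by
        rw [hZ, toQuot_ker, map_sub]; exact hc'1
      have hc'3 : c - c' ∈ Submodule.span ℂ (Set.range (U l)) := by
        have h7 : c - c' = ∑ k, (finBasis ℂ Z).repr ⟨c - c', hc'2⟩ k • z k := by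
          have := (finBasis ℂ Z).sum_repr ⟨c - c', hc'2⟩
          have h8 := congrArg (Subtype.val) this
          rw [AddSubmonoidClass.coe_finsetSum] at h8
          exact h8.symm
        rw [h7]
        exact Submodule.sum_mem _ fun k _ => Submodule.smul_mem _ _
          (Submodule.subset_span ⟨Sum.inr k, rfl⟩)
      have hc'4 : c' ∈ Submodule.span ℂ (Set.range (U l)) := by
        rw [hc']
        exact Submodule.sum_mem _ fun j _ => Submodule.sum_mem _ fun β _ =>
          Submodule.smul_mem _ _ (Submodule.subset_span ⟨Sum.inl (j, β), rfl⟩)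
      have := Submodule.add_mem _ hc'3 hc'4
      rwa [sub_add_cancel] at this
  have hsurj : ∀ I : Ideal (AnFun n), qM n M ≤ I → Function.Surjective (toQuot b I) := by
    intro I hq y
    obtain ⟨h, rfl⟩ := Ideal.Quotient.mk_surjective y
    obtain ⟨c, hc⟩ := taylor_surj l₀ hb h
    refine ⟨c, ?_⟩
    change Ideal.Quotient.mk _ (combo b c) = _
    rw [eq_comm, ← sub_eq_zero, ← map_sub]
    exact Ideal.Quotient.eq_zero_iff_mem.mpr (hq hc)
  have hdim : ∀ I : Ideal (AnFun n), qM n M ≤ I → Module.Finite ℂ (AnFun n ⧸ I) ∧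
      finrank ℂ (AnFun n ⧸ I) + finrank ℂ (toQuot b I).ker = Fintype.card ι := by
    intro I hq
    have h2 := LinearMap.finrank_range_add_finrank_ker (toQuot b I)
    rw [LinearMap.range_eq_top.mpr (hsurj I hq), finrank_top,
      Module.finrank_fintype_fun_eq_card] at h2
    exact ⟨Module.Finite.of_surjective (toQuot b I) (hsurj I hq), h2⟩
  have hrank := rank_lsc U l₀ hUc
  have hq0 := hM₁ M (by omega) _ hd0
  filter_upwards [hspan, hrank, hφs] with l hl1 hl2 hl3
  have e0 := hspan.self_of_nhds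
  rw [sup_eq_left.2 hq0] at e0
  have e1 := (hdim _ hq0).2
  rw [← e0, hd0.2] at e1
  obtain ⟨e2, e3⟩ := hdim (locIdeal (Set.range fun j => fun x => φ j (x, l)) ⊔ qM n M) le_sup_right
  rw [← hl1] at e3
  have e4 := hM₂ M (by omega) (locIdeal (Set.range fun j => fun x => φ j (x, l)))
    (nul_le_locIdeal _) e2 (by omega)
  rw [sup_eq_left.2 e4] at e2 e3
  exact ⟨finrank ℂ (AnFun n ⧸ locIdeal (Set.range fun j => fun x => φ j (x, l))), by omega,
    colength_of_hasColength hl3 ⟨e2, rfl⟩⟩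

end Vale.Agent.P298.H137
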