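import Vale.Agent.P298.H137.LG7
import Vale.Agent.P298.H137.Usc
import Vale.Agent.P298.H119.Defs

/-!
# P298, block LG: the end of the argument

A `μ`-constant family `f_t` and holomorphic families `e_t`, `h_t` for which the colength of
`(f_t, e_t, jac (f_t, e_t, h_t))` does not drop form a system of companions.
-/

noncomputable section

namespace Vale.Agent.P298.H137

open Filter Topology Metric Vale.Agent.P298 Vale.Agent.P298.H766 Vale.Agent.P298.H119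

theorem colength_unique {n k : ℕ} {s : Fin k → (Fin n → ℂ) → ℂ} (hs : ∀ j, Hol (s j)) {d d' : ℕ}
    (h : Colength s d) (h' : Colength s d') : d = d' := by
  rw [colength_iff_ser hs] at h h'
  rw [← h.2, ← h'.2]

theorem pd_zero_of_milnor {n : ℕ} {f : (Fin n → ℂ) → ℂ} (hf : Hol f) {μ : ℕ} (hμ : Milnor f μ)
    (h : μ ≠ 0) (i : Fin n) : pd i f 0 = 0 := by
  by_contra h1
  exact h ((colength_of_unit (s := fun i => pd i f) (j := i) (hol_pd hf i) h1 μ).1 hμ)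

theorem hol_slice {n : ℕ} {F : (Fin n → ℂ) → ℂ → ℂ} {t : ℂ}
    (hF : AnalyticAt ℂ (fun p : (Fin n → ℂ) × ℂ => F p.1 p.2) (0, t)) : Hol (F · t) := by
  have h2 : AnalyticAt ℂ (fun x : Fin n → ℂ => (x, t)) 0 :=
    analyticAt_id.prod analyticAt_const
  exact AnalyticAt.fun_comp (g := fun p : (Fin n → ℂ) × ℂ => F p.1 p.2)
    (f := fun x : Fin n → ℂ => (x, t)) hF h2

theorem analyticAt_minor2 {n : ℕ} {F E : (Fin n → ℂ) → ℂ → ℂ} {p₀ : (Fin n → ℂ) × ℂ}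
    (hF : AnalyticAt ℂ (fun p : (Fin n → ℂ) × ℂ => F p.1 p.2) p₀)
    (hE : AnalyticAt ℂ (fun p : (Fin n → ℂ) × ℂ => E p.1 p.2) p₀) (i j : Fin n) :
    AnalyticAt ℂ (fun p : (Fin n → ℂ) × ℂ => minor2 i j (F · p.2) (E · p.2) p.1) p₀ :=
  ((analyticAt_pd hF i).mul (analyticAt_pd hE j)).sub
    ((analyticAt_pd hF j).mul (analyticAt_pd hE i))

theorem analyticAt_jac3 {F E H : (Fin 3 → ℂ) → ℂ → ℂ} {p₀ : (Fin 3 → ℂ) × ℂ}
    (hF : AnalyticAt ℂ (fun p : (Fin 3 → ℂ) × ℂ => F p.1 p.2) p₀)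
    (hE : AnalyticAt ℂ (fun p : (Fin 3 → ℂ) × ℂ => E p.1 p.2) p₀)
    (hH : AnalyticAt ℂ (fun p : (Fin 3 → ℂ) × ℂ => H p.1 p.2) p₀) :
    AnalyticAt ℂ (fun p : (Fin 3 → ℂ) × ℂ => jac3 (F · p.2) (E · p.2) (H · p.2) p.1) p₀ := by
  have h1 : (fun p : (Fin 3 → ℂ) × ℂ => jac3 (F · p.2) (E · p.2) (H · p.2) p.1) = fun p =>
      (minor2 1 2 (F · p.2) (E · p.2) p.1 * pd 0 (H · p.2) p.1 -
        minor2 0 2 (F · p.2) (E · p.2) p.1 * pd 1 (H · p.2) p.1) +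
        minor2 0 1 (F · p.2) (E · p.2) p.1 * pd 2 (H · p.2) p.1 := by
    funext p
    rw [jac3_eq]
  rw [h1]
  exact (((analyticAt_minor2 hF hE 1 2).mul (analyticAt_pd hH 0)).sub
    ((analyticAt_minor2 hF hE 0 2).mul (analyticAt_pd hH 1))).add
    ((analyticAt_minor2 hF hE 0 1).mul (analyticAt_pd hH 2))

theorem pd_sub_const {n : ℕ} (i : Fin n) (h : (Fin n → ℂ) → ℂ) (c : ℂ) :
    pd i (fun x => h x - c) = pd i h := by
  funext x
  simp only [pd, fderiv_sub_const]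

theorem jac3_sub_const (f e h : (Fin 3 → ℂ) → ℂ) (c : ℂ) :
    jac3 f e (fun x => h x - c) = jac3 f e h := by
  rw [jac3_eq, jac3_eq]
  simp only [pd_sub_const]

theorem jac3_zero {f : (Fin 3 → ℂ) → ℂ} (hf : ∀ i, pd i f 0 = 0) (e h : (Fin 3 → ℂ) → ℂ) :
    jac3 f e h 0 = 0 := by
  rw [jac3_eq]
  simp [minor2, hf]

section

variable {F E H : (Fin 3 → ℂ) → ℂ → ℂ}

theorem usc_three {G₁ G₂ G₃ : (Fin 3 → ℂ) → ℂ → ℂ}
    (h1 : AnalyticAt ℂ (fun p : (Fin 3 → ℂ) × ℂ => G₁ p.1 p.2) (0, 0))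
    (h2 : AnalyticAt ℂ (fun p : (Fin 3 → ℂ) × ℂ => G₂ p.1 p.2) (0, 0))
    (h3 : AnalyticAt ℂ (fun p : (Fin 3 → ℂ) × ℂ => G₃ p.1 p.2) (0, 0)) {d : ℕ}
    (hd : Colength ![(G₁ · 0), (G₂ · 0), (G₃ · 0)] d) :
    ∀ᶠ t in 𝓝 (0 : ℂ), ∃ d' ≤ d, Colength ![(G₁ · t), (G₂ · t), (G₃ · t)] d' := by
  have e : ∀ t, (fun (j : Fin 3) (x : Fin 3 → ℂ) =>
      (![fun p : (Fin 3 → ℂ) × ℂ => G₁ p.1 p.2, fun p => G₂ p.1 p.2, fun p => G₃ p.1 p.2]) j
        (x, t)) = ![(G₁ · t), (G₂ · t), (G₃ · t)] := by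
    intro t
    funext j
    fin_cases j <;> rfl
  have h := colength_usc (0 : ℂ)
    (![fun p : (Fin 3 → ℂ) × ℂ => G₁ p.1 p.2, fun p => G₂ p.1 p.2, fun p => G₃ p.1 p.2])
    (by intro j; fin_cases j <;> assumption) (d := d) (by rw [e]; exact hd)
  filter_upwards [h] with t ht
  rw [e] at ht
  exact ht

theorem usc_four {G₁ G₂ G₃ G₄ : (Fin 3 → ℂ) → ℂ → ℂ}
    (h1 : AnalyticAt ℂ (fun p : (Fin 3 → ℂ) × ℂ => G₁ p.1 p.2) (0, 0))
    (h2 : AnalyticAt ℂ (fun p : (Fin 3 → ℂ) × ℂ => G₂ p.1 p.2) (0, 0))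
    (h3 : AnalyticAt ℂ (fun p : (Fin 3 → ℂ) × ℂ => G₃ p.1 p.2) (0, 0))
    (h4 : AnalyticAt ℂ (fun p : (Fin 3 → ℂ) × ℂ => G₄ p.1 p.2) (0, 0)) {d : ℕ}
    (hd : Colength ![(G₁ · 0), (G₂ · 0), (G₃ · 0), (G₄ · 0)] d) :
    ∀ᶠ t in 𝓝 (0 : ℂ), ∃ d' ≤ d, Colength ![(G₁ · t), (G₂ · t), (G₃ · t), (G₄ · t)] d' := by
  have e : ∀ t, (fun (j : Fin 4) (x : Fin 3 → ℂ) =>
      (![fun p : (Fin 3 → ℂ) × ℂ => G₁ p.1 p.2, fun p => G₂ p.1 p.2, fun p => G₃ p.1 p.2,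
        fun p => G₄ p.1 p.2]) j (x, t)) = ![(G₁ · t), (G₂ · t), (G₃ · t), (G₄ · t)] := by
    intro t
    funext j
    fin_cases j <;> rfl
  have h := colength_usc (0 : ℂ)
    (![fun p : (Fin 3 → ℂ) × ℂ => G₁ p.1 p.2, fun p => G₂ p.1 p.2, fun p => G₃ p.1 p.2,
      fun p => G₄ p.1 p.2])
    (by intro j; fin_cases j <;> assumption) (d := d) (by rw [e]; exact hd)
  filter_upwards [h] with t ht
  rw [e] at ht
  exact ht

/-- **End of the argument.** Let `f_t` be `μ`-constant, `μ ≠ 0`, let `e_t` and `h_t` be holomorphic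
families with `e_0(0) = h_0(0) = 0`, let `(f_0, e_0, h_0)` and `(f_0, e_0, J_0)` have finite
colengths, `J_t = jac (f_t, e_t, h_t)`, and suppose that the colength of `(f_t, e_t, J_t)` is for
small `t` not smaller than for `t = 0`. Then `e_t` and `h_t - h_t(0)` are companions. -/
theorem companions (hford : FordP) {r : ℝ} (hr : 0 < r) (hF : IsHolFamily r F)
    (hE : AnalyticAt ℂ (fun p : (Fin 3 → ℂ) × ℂ => E p.1 p.2) (0, 0))
    (hH : AnalyticAt ℂ (fun p : (Fin 3 → ℂ) × ℂ => H p.1 p.2) (0, 0))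
    (E0 : E 0 0 = 0) (H0 : H 0 0 = 0) {μ b c : ℕ}
    (hμ : ∀ t ∈ ball (0 : ℂ) r, Milnor (F · t) μ) (hμ0 : μ ≠ 0)
    (hb : Colength ![(F · 0), (E · 0), jac3 (F · 0) (E · 0) (H · 0)] b)
    (hc : Colength ![(F · 0), (E · 0), (H · 0)] c)
    (hlow : ∀ᶠ t in 𝓝 (0 : ℂ), ∀ b', Colength ![(F · t), (E · t),
      jac3 (F · t) (E · t) (H · t)] b' → b ≤ b') :
    ∃ r', 0 < r' ∧ r' ≤ r ∧ Companion r' F E ∧ Companion2 r' F E (fun x t => H x t - H 0 t) := by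
  have h0r : (0 : ℂ) ∈ ball (0 : ℂ) r := mem_ball_self hr
  have hnr : ∀ᶠ t in 𝓝 (0 : ℂ), t ∈ ball (0 : ℂ) r := isOpen_ball.mem_nhds h0r
  have aF := (hF 0 h0r).1
  have ht0 : Tendsto (fun t : ℂ => ((0 : Fin 3 → ℂ), t)) (𝓝 0) (𝓝 (0, 0)) :=
    Continuous.tendsto (by fun_prop) 0
  -- the family `h_t - h_t(0)`
  have aH' : ∀ t, AnalyticAt ℂ (fun p : (Fin 3 → ℂ) × ℂ => H p.1 p.2) (0, t) →
      AnalyticAt ℂ (fun p : (Fin 3 → ℂ) × ℂ => H p.1 p.2 - H 0 p.2) (0, t) := by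
    intro t ht
    refine AnalyticAt.sub ht ?_
    have h2 : AnalyticAt ℂ (fun p : (Fin 3 → ℂ) × ℂ => ((0 : Fin 3 → ℂ), p.2)) (0, t) :=
      analyticAt_const.prod analyticAt_snd
    exact AnalyticAt.fun_comp (g := fun p : (Fin 3 → ℂ) × ℂ => H p.1 p.2)
      (f := fun p : (Fin 3 → ℂ) × ℂ => ((0 : Fin 3 → ℂ), p.2)) ht h2
  have hJ' : ∀ t, jac3 (F · t) (E · t) (fun x => H x t - H 0 t) =
      jac3 (F · t) (E · t) (H · t) := fun t => jac3_sub_const _ _ _ _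
  have hH'0 : (fun x => H x 0 - H 0 0) = (H · 0) := by
    funext x
    rw [H0, sub_zero]
  -- the value at `t = 0`
  have d0 : ∀ t ∈ ball (0 : ℂ) r, ∀ i, pd i (F · t) 0 = 0 := fun t ht i =>
    pd_zero_of_milnor (hol_slice (hF t ht).1) (hμ t ht) hμ0 i
  obtain ⟨a, ha, hsum⟩ := leGreuel_germ hford (hol_slice aF) (hol_slice hE) (hol_slice hH)
    (hF 0 h0r).2 E0 H0 (d0 0 h0r) (hμ 0 h0r) hb hc
  -- semicontinuity
  have ub := usc_three (G₁ := F) (G₂ := E)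
    (G₃ := fun x t => jac3 (F · t) (E · t) (H · t) x) aF hE (analyticAt_jac3 aF hE hH) hb
  have uc := usc_three (G₁ := F) (G₂ := E) (G₃ := fun x t => H x t - H 0 t) aF hE (aH' 0 hH)
    (d := c) (by rw [hH'0]; exact hc)
  have ua := usc_four (G₁ := F) (G₂ := fun x t => minor2 0 1 (F · t) (E · t) x)
    (G₃ := fun x t => minor2 0 2 (F · t) (E · t) x)
    (G₄ := fun x t => minor2 1 2 (F · t) (E · t) x) aF (analyticAt_minor2 aF hE 0 1)
    (analyticAt_minor2 aF hE 0 2) (analyticAt_minor2 aF hE 1 2) ha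
  -- `b` is positive
  have hbpos : b ≠ 0 := by
    rintro rfl
    rw [colength_iff_ser (hol_three (hol_slice aF) (hol_slice hE)
      (hol_jac3 (hol_slice aF) (hol_slice hE) (hol_slice hH))), serIdeal_three] at hb
    have h1 : (1 : S3) ∈ I3 (ser (F · 0)) (ser (E · 0))
        (ser (jac3 (F · 0) (E · 0) (H · 0))) := by
      have h2 : Module.Finite ℂ (S3 ⧸ I3 (ser (F · 0)) (ser (E · 0))
        (ser (jac3 (F · 0) (E · 0) (H · 0)))) := hb.1
      have h3 := Module.finrank_zero_iff.1 hb.2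
      exact Ideal.Quotient.eq_zero_iff_mem.1 (Subsingleton.elim _ _)
    have h2 : I3 (ser (F · 0)) (ser (E · 0)) (ser (jac3 (F · 0) (E · 0) (H · 0))) ≤
        RingHom.ker (MvPowerSeries.constantCoeff (σ := Fin 3) (R := ℂ)) := by
      refine sup_le (Ideal.span_le.2 ?_) (Ideal.span_le.2 ?_)
      · rintro x (rfl | rfl)
        · change MvPowerSeries.constantCoeff _ = 0
          rw [constantCoeff_ser (hol_slice aF)]
          exact (hF 0 h0r).2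
        · change MvPowerSeries.constantCoeff _ = 0
          rw [constantCoeff_ser (hol_slice hE)]
          exact E0
      · rintro x rfl
        change MvPowerSeries.constantCoeff _ = 0
        rw [constantCoeff_ser (hol_jac3 (hol_slice aF) (hol_slice hE) (hol_slice hH))]
        exact jac3_zero (d0 0 h0r) _ _
    have h3 := h2 h1
    rw [RingHom.mem_ker, map_one] at h3
    exact one_ne_zero h3
  have aEs : ∀ᶠ t in 𝓝 (0 : ℂ),
      AnalyticAt ℂ (fun p : (Fin 3 → ℂ) × ℂ => E p.1 p.2) (0, t) :=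
    ht0.eventually hE.eventually_analyticAt
  have aHs : ∀ᶠ t in 𝓝 (0 : ℂ),
      AnalyticAt ℂ (fun p : (Fin 3 → ℂ) × ℂ => H p.1 p.2) (0, t) :=
    ht0.eventually hH.eventually_analyticAt
  have key : ∀ᶠ t in 𝓝 (0 : ℂ), t ∈ ball (0 : ℂ) r ∧
      AnalyticAt ℂ (fun p : (Fin 3 → ℂ) × ℂ => E p.1 p.2) (0, t) ∧
      AnalyticAt ℂ (fun p : (Fin 3 → ℂ) × ℂ => H p.1 p.2) (0, t) ∧ E 0 t = 0 ∧
      Colength ![(F · t), minor2 0 1 (F · t) (E · t), minor2 0 2 (F · t) (E · t),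
        minor2 1 2 (F · t) (E · t)] a ∧
      Colength ![(F · t), (E · t), jac3 (F · t) (E · t) (H · t)] b ∧
      Colength ![(F · t), (E · t), (fun x => H x t - H 0 t)] c := by
    filter_upwards [hnr, aEs, aHs, ub, uc, ua, hlow] with t htr hEt hHt hbt hct hat hlt
    obtain ⟨b', hb'le, hb'⟩ := hbt
    obtain ⟨c', hc'le, hc'⟩ := hct
    obtain ⟨a', ha'le, ha'⟩ := hat
    have hbb : b' = b := le_antisymm hb'le (hlt b' hb')
    subst hbb
    have hE0 : E 0 t = 0 := by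
      by_contra hne
      exact hbpos ((colength_of_unit (s := ![(F · t), (E · t),
        jac3 (F · t) (E · t) (H · t)]) (j := 1) (hol_slice hEt) hne b').1 hb')
    have hft := hol_slice (hF t htr).1
    have het := hol_slice hEt
    have hht := hol_slice (F := fun x t => H x t - H 0 t) (aH' t hHt)
    obtain ⟨a'', ha'', hsum'⟩ := leGreuel_germ hford hft het hht
      (hF t htr).2 hE0 (sub_self _) (d0 t htr) (hμ t htr) (b := b') (by rw [hJ' t]; exact hb') hc'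
    have haa : a'' = a' := colength_unique (hol_four hft het) ha'' ha'
    have h1 : a' = a := by omega
    have h2 : c' = c := by omega
    subst h1
    subst h2
    exact ⟨htr, hEt, hHt, hE0, ha', hb', hc'⟩
  obtain ⟨ε, hε, hball⟩ := Metric.eventually_nhds_iff_ball.1 key
  refine ⟨min ε r, lt_min hε hr, min_le_right _ _, ?_, ?_⟩
  · refine ⟨fun t ht => ?_, a, fun t ht => ?_⟩
    · have h1 := hball t (ball_subset_ball (min_le_left _ _) ht)
      exact ⟨h1.2.1, h1.2.2.2.1⟩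
    · exact (hball t (ball_subset_ball (min_le_left _ _) ht)).2.2.2.2.1
  · refine ⟨fun t ht => ?_, ⟨b, fun t ht => ?_⟩, c, fun t ht => ?_⟩
    · have h1 := hball t (ball_subset_ball (min_le_left _ _) ht)
      exact ⟨aH' t h1.2.2.1, sub_self _⟩
    · have h1 := (hball t (ball_subset_ball (min_le_left _ _) ht)).2.2.2.2.2.1
      rw [← hJ' t] at h1
      exact h1
    · exact (hball t (ball_subset_ball (min_le_left _ _) ht)).2.2.2.2.2.2

theorem isHolFamily_mono {n : ℕ} {r r' : ℝ} {G : (Fin n → ℂ) → ℂ → ℂ} (h : IsHolFamily r G)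
    (hr : r' ≤ r) : IsHolFamily r' G := fun t ht => h t (ball_subset_ball hr ht)

/-- the same hypotheses give the topological triviality of the family -/
theorem topRightTrivial (hford : FordP) {r : ℝ} (hr : 0 < r) (hF : IsHolFamily r F)
    (hE : AnalyticAt ℂ (fun p : (Fin 3 → ℂ) × ℂ => E p.1 p.2) (0, 0))
    (hH : AnalyticAt ℂ (fun p : (Fin 3 → ℂ) × ℂ => H p.1 p.2) (0, 0))
    (E0 : E 0 0 = 0) (H0 : H 0 0 = 0) {μ b c : ℕ}
    (hμ : ∀ t ∈ ball (0 : ℂ) r, Milnor (F · t) μ) (hμ0 : μ ≠ 0)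
    (hb : Colength ![(F · 0), (E · 0), jac3 (F · 0) (E · 0) (H · 0)] b)
    (hc : Colength ![(F · 0), (E · 0), (H · 0)] c)
    (hlow : ∀ᶠ t in 𝓝 (0 : ℂ), ∀ b', Colength ![(F · t), (E · t),
      jac3 (F · t) (E · t) (H · t)] b' → b ≤ b') : TopRightTrivial r F := by
  obtain ⟨r', h0, hle, ⟨hE', a', ha⟩, hH', ⟨b', hb'⟩, c', hc'⟩ :=
    companions hford hr hF hE hH E0 H0 hμ hμ0 hb hc hlow
  obtain ⟨δ, hδ, hδr, Φ, hΦ⟩ := companion_flag h0 (isHolFamily_mono hF hle) hE' hH'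
    (fun t ht => hμ t (ball_subset_ball hle ht)) ha hb' hc'
  exact ⟨δ, hδ, hδr.trans hle, Φ, hΦ⟩

end

end Vale.Agent.P298.H137
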