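import Vale.Agent.P298.H137.Surf

/-!
# P298 (helper137): the endgame in the language of germs

From an exact pair `(e, e')` on the germ `f_0 = 0`, the semicontinuity of the ideals `I_N(f_t)`
and the extension of `e, e'` to sections `e_t, e'_t ∈ I_k(f_t)`, `k < m`, to the topological
triviality of the `μ`-constant family `f_t`.
-/

noncomputable section

namespace Vale.Agent.P298.H137

open Filter Topology Metric Module Vale.Agent.P298 Vale.Agent.P298.H766 Vale.Agent.P298.H379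
  Vale.Agent.P298.H967 Vale.Agent.P298.H990

/-- comparison of two quadratic functions -/
theorem quad_le {α β C c : ℝ} (hβ : 0 ≤ β)
    (h : ∀ n : ℕ, 1 ≤ n → α * (n : ℝ) ^ 2 - C * n ≤ β * ((n : ℝ) + c) ^ 2) : α ≤ β := by
  by_contra hlt
  push Not at hlt
  have hpos : 0 < α - β := sub_pos.2 hlt
  obtain ⟨n, hn⟩ := exists_nat_gt ((C + 2 * β * c + β * c ^ 2) / (α - β))
  have hn1 : (1 : ℝ) ≤ (max n 1 : ℕ) := by exact_mod_cast le_max_right _ _
  have hn2 : (C + 2 * β * c + β * c ^ 2) / (α - β) < (max n 1 : ℕ) :=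
    hn.trans_le (by exact_mod_cast le_max_left _ _)
  have h1 := h (max n 1) (le_max_right _ _)
  set x : ℝ := ((max n 1 : ℕ) : ℝ) with hx
  rw [div_lt_iff₀ hpos] at hn2
  have h2 : β * c ^ 2 ≤ β * c ^ 2 * x := by
    have : 0 ≤ β * c ^ 2 := by positivity
    nlinarith
  nlinarith [mul_le_mul_of_nonneg_right hn2.le (by linarith : (0 : ℝ) ≤ x)]

/-- `1 ∈ I_k(f)` does not depend on `k` -/
theorem inI_one {f : (Fin 3 → ℂ) → ℂ} {k N : ℝ} (h : InI f k (fun _ => 1)) :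
    InI f N (fun _ => 1) := by
  obtain ⟨h1, r, hr, h2⟩ := h
  refine ⟨h1, r, hr, ?_⟩
  have h3 : Nloc f r N (fun _ => 1) = Nloc f r k (fun _ => 1) := by
    unfold Nloc
    simp
  rw [h3]
  exact h2

/-- a unit in `I_k(f)` -/
theorem IK_eq_top {f e : (Fin 3 → ℂ) → ℂ} (hf : Hol f) {k N : ℝ} (hk : 0 < k) (hN : 0 < N)
    (h : InI f k e) (h0 : e 0 ≠ 0) : IK f N = ⊤ := by
  rw [IK_ne_top_iff H373.areaI hf hN]
  refine inI_one (k := k) ?_
  have he : Hol e := h.1
  have hinv : Hol (fun x => (e x)⁻¹) := AnalyticAt.inv he h0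
  have h1 := inI_mul_left hk h hinv
  have hc : ContinuousAt e 0 := AnalyticAt.continuousAt he
  refine inI_congr h1 ?_
  filter_upwards [hc.eventually_ne h0] with x hx
  rw [inv_mul_cancel₀ hx]

theorem finrank_top_zero {I : Ideal (AnFun 3)} (h : I = ⊤) : finrank ℂ (AnFun 3 ⧸ I) = 0 := by
  subst h
  have : Subsingleton (AnFun 3 ⧸ (⊤ : Ideal (AnFun 3))) :=
    Ideal.Quotient.subsingleton_iff.2 rfl
  exact finrank_zero_of_subsingleton

/-- **Endgame.** -/
theorem endgame {r : ℝ} (hr : 0 < r) {F : (Fin 3 → ℂ) → ℂ → ℂ} (hF : IsHolFamily r F) {μ : ℕ}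
    (hμ : ∀ t ∈ ball (0 : ℂ) r, Milnor (F · t) μ) (hμ0 : μ ≠ 0) {e e' : (Fin 3 → ℂ) → ℂ}
    (e0 : e 0 = 0) (e0' : e' 0 = 0) {D B : ℕ}
    (hD : Colength ![(F · 0), e, e'] D) (hB : Colength ![(F · 0), e, jac3 (F · 0) e e'] B)
    {m : ℝ} (hm : 0 < m) (hmB : m * B ≤ (2 * m + 1) * D)
    (low : ∃ C : ℝ, ∀ N : ℝ, 1 ≤ N →
      D * N ^ 2 / (2 * m ^ 2) - C * N ≤ finrank ℂ (AnFun 3 ⧸ IK (F · 0) N))
    (rv : ∀ᶠ t in 𝓝 (0 : ℂ), ∀ n : ℕ, 1 ≤ n →
      finrank ℂ (AnFun 3 ⧸ IK (F · 0) n) ≤ finrank ℂ (AnFun 3 ⧸ IK (F · t) (n + 1)))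
    (ext : ∃ᶠ k in 𝓝[<] m, ∃ E E' : (Fin 3 → ℂ) → ℂ → ℂ,
      AnalyticAt ℂ (fun p : (Fin 3 → ℂ) × ℂ => E p.1 p.2) (0, 0) ∧
      AnalyticAt ℂ (fun p : (Fin 3 → ℂ) × ℂ => E' p.1 p.2) (0, 0) ∧
      (E · 0) = e ∧ (E' · 0) = e' ∧
      ∀ᶠ t in 𝓝 (0 : ℂ), InI (F · t) k (E · t) ∧ InI (F · t) k (E' · t)) :
    TopRightTrivial r F := by
  have h0r : (0 : ℂ) ∈ ball (0 : ℂ) r := mem_ball_self hr
  have hnr : ∀ᶠ t in 𝓝 (0 : ℂ), t ∈ ball (0 : ℂ) r := isOpen_ball.mem_nhds h0r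
  -- choice of `k`
  have h1 : ∀ᶠ k in 𝓝[<] m, (B : ℝ) - 1 < k * (2 * k + 1) * (D / m ^ 2) := by
    have hc : ContinuousAt (fun k : ℝ => k * (2 * k + 1) * (D / m ^ 2)) m := by fun_prop
    refine (hc.eventually (lt_mem_nhds ?_)).filter_mono nhdsWithin_le_nhds
    have h2 : m * (2 * m + 1) * (D / m ^ 2) = (2 * m + 1) * D / m := by
      field_simp
    change (B : ℝ) - 1 < m * (2 * m + 1) * (D / m ^ 2)
    rw [h2, lt_div_iff₀ hm]
    nlinarith
  have h2 : ∀ᶠ k in 𝓝[<] m, 0 < k := (lt_mem_nhds hm).filter_mono nhdsWithin_le_nhds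
  obtain ⟨k, ⟨E, E', aE, aE', hE0, hE0', hInI⟩, hk1, hk0, hkm⟩ :=
    (ext.and_eventually (h1.and (h2.and self_mem_nhdsWithin))).exists
  obtain ⟨C, hC⟩ := low
  have hE00 : E 0 0 = 0 := by
    have := congrFun hE0 0
    exact this.trans e0
  have hE00' : E' 0 0 = 0 := by
    have := congrFun hE0' 0
    exact this.trans e0'
  have he : Hol e := hE0 ▸ hol_slice aE
  have he' : Hol e' := hE0' ▸ hol_slice aE'
  have aF := (hF 0 h0r).1
  -- `D` is positive
  have hDpos : 0 < D := by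
    rcases Nat.eq_zero_or_pos D with rfl | h
    · exfalso
      rw [colength_iff_ser (hol_three (hol_slice aF) he he'), serIdeal_three] at hD
      have h3 : (1 : S3) ∈ I3 (ser (F · 0)) (ser e) (ser e') := by
        have h2 : Module.Finite ℂ (S3 ⧸ I3 (ser (F · 0)) (ser e) (ser e')) := hD.1
        have h3 := Module.finrank_zero_iff.1 hD.2
        exact Ideal.Quotient.eq_zero_iff_mem.1 (Subsingleton.elim _ _)
      have h4 : I3 (ser (F · 0)) (ser e) (ser e') ≤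
          RingHom.ker (MvPowerSeries.constantCoeff (σ := Fin 3) (R := ℂ)) := by
        refine sup_le (Ideal.span_le.2 ?_) (Ideal.span_le.2 ?_)
        · rintro x (rfl | rfl)
          · change MvPowerSeries.constantCoeff _ = 0
            rw [constantCoeff_ser (hol_slice aF)]
            exact (hF 0 h0r).2
          · change MvPowerSeries.constantCoeff _ = 0
            rw [constantCoeff_ser he]
            exact e0
        · rintro x rfl
          change MvPowerSeries.constantCoeff _ = 0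
          rw [constantCoeff_ser he']
          exact e0'
      have h5 := h4 h3
      rw [RingHom.mem_ker, map_one] at h5
      exact one_ne_zero h5
    · exact h
  -- `(f_t, e_t, e'_t)` has finite colength
  have uD := usc_three (G₁ := F) (G₂ := E) (G₃ := E') aF aE aE' (d := D)
    (by rw [hE0, hE0']; exact hD)
  refine Main.topRightTrivial hr hF aE aE' hE00 hE00' hμ hμ0 (b := B) (c := D)
    (by rw [hE0, hE0']; exact hB) (by rw [hE0, hE0']; exact hD) ?_
  have ht0 : Tendsto (fun t : ℂ => ((0 : Fin 3 → ℂ), t)) (𝓝 0) (𝓝 (0, 0)) :=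
    Continuous.tendsto (by fun_prop) 0
  filter_upwards [hnr, ht0.eventually aE.eventually_analyticAt,
    ht0.eventually aE'.eventually_analyticAt, hInI, uD, rv] with t htr aEt aEt' hIt uDt hrv
  obtain ⟨Dt, -, hDt⟩ := uDt
  have hft := hol_slice (hF t htr).1
  have het := hol_slice aEt
  have het' := hol_slice aEt'
  -- units are excluded
  have hnotop : ∀ g : (Fin 3 → ℂ) → ℂ, InI (F · t) k g → g 0 = 0 := by
    intro g hg
    by_contra hne
    have h3 : ∀ n : ℕ, 1 ≤ n → (D / (2 * m ^ 2)) * (n : ℝ) ^ 2 - C * n ≤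
        0 * ((n : ℝ) + 0) ^ 2 := by
      intro n hn
      have h4 := hC n (by exact_mod_cast hn)
      have h5 := hrv n hn
      rw [finrank_top_zero (IK_eq_top hft hk0 (by positivity : (0 : ℝ) < (n : ℝ) + 1) hg hne)]
        at h5
      have h6 : finrank ℂ (AnFun 3 ⧸ IK (F · 0) n) = 0 := Nat.le_zero.1 h5
      rw [h6] at h4
      rw [zero_mul]
      calc (D / (2 * m ^ 2)) * (n : ℝ) ^ 2 - C * n = D * (n : ℝ) ^ 2 / (2 * m ^ 2) - C * n := by
            ring
        _ ≤ _ := by exact_mod_cast h4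
    have h4 := quad_le le_rfl h3
    have h5 : (0 : ℝ) < D / (2 * m ^ 2) := by
      have : (0 : ℝ) < D := by exact_mod_cast hDpos
      positivity
    linarith
  intro b' hb'
  have hsurf := fun n : ℕ => one_surf hft het het' (hF t htr).2 (hnotop _ hIt.1)
    (hnotop _ hIt.2) (pd_zero_of_milnor hft (hμ t htr) hμ0) hk0
    (fun k' hk' hkk => inI_mono hIt.1 hk' hkk.le) (fun k' hk' hkk => inI_mono hIt.2 hk' hkk.le)
    hDt hb' (N := (n : ℝ) + 1) (by positivity)
  have h3 : ∀ n : ℕ, 1 ≤ n → (D / (2 * m ^ 2)) * (n : ℝ) ^ 2 - C * n ≤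
      (b' / (2 * k * (2 * k + 1))) * ((n : ℝ) + (2 + k + (2 * k + 1) / 2)) ^ 2 := by
    intro n hn
    have h4 := hC n (by exact_mod_cast hn)
    have h5 : (finrank ℂ (AnFun 3 ⧸ IK (F · 0) n) : ℝ) ≤
        finrank ℂ (AnFun 3 ⧸ IK (F · t) (n + 1)) := by exact_mod_cast hrv n hn
    have h6 := (hsurf n).2
    calc (D / (2 * m ^ 2)) * (n : ℝ) ^ 2 - C * n = D * (n : ℝ) ^ 2 / (2 * m ^ 2) - C * n := by
          ring
      _ ≤ _ := h4
      _ ≤ _ := h5
      _ ≤ _ := h6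
      _ = _ := by ring
  have h4 := quad_le (by positivity) h3
  have hkk : (0 : ℝ) < k * (2 * k + 1) := by positivity
  have h5 : k * (2 * k + 1) * (D / m ^ 2) ≤ b' := by
    have h6 : (D : ℝ) / (2 * m ^ 2) = (D / m ^ 2) / 2 := by
      field_simp
    have h7 : (b' : ℝ) / (2 * k * (2 * k + 1)) = (b' / (k * (2 * k + 1))) / 2 := by
      field_simp
    rw [h6, h7] at h4
    have h8 : (D : ℝ) / m ^ 2 ≤ b' / (k * (2 * k + 1)) := by linarith
    rw [le_div_iff₀ hkk] at h8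
    linarith
  have h6 : (B : ℝ) < b' + 1 := by linarith
  have h7 : B < b' + 1 := by exact_mod_cast h6
  omega

end Vale.Agent.P298.H137
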