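import Vale.Agent.P298.H824.Chain

/-!
# P298, block LG: arcs of formal space curves and intersection numbers
-/

open MvPowerSeries

noncomputable section

namespace Vale.Agent.P298.H137

/-- `ℂ[[x₀, x₁, x₂]]` -/
abbrev S3 : Type := MvPowerSeries (Fin 3) ℂ

/-- `ℂ[[s]]` -/
abbrev Ps : Type := PowerSeries ℂ

/-- finite colength -/
def Fin' (I : Ideal S3) : Prop := Module.Finite ℂ (S3 ⧸ I)

/-- the colength -/
def dm (I : Ideal S3) : ℕ := Module.finrank ℂ (S3 ⧸ I)

/-- the ideal of a space curve and a function -/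
def I3 (a b c : S3) : Ideal S3 := Ideal.span {a, b} ⊔ Ideal.span {c}

/-- the order formula (helper824) -/
def FordP : Prop := ∀ (I : Ideal S3) (l : S3), constantCoeff l = 0 →
  Module.Finite ℂ (S3 ⧸ (I ⊔ Ideal.span {l})) → (∀ x, l * x ∈ I → x ∈ I) →
  ∃ N : ℕ, 0 < N ∧ ∃ (k : ℕ) (φ : Fin k → (S3 →ₐ[ℂ] Ps)), (∀ i, I ≤ RingHom.ker (φ i)) ∧
    (∀ i, φ i l = PowerSeries.X ^ N) ∧ ∀ (u : S3) (e : ℕ),
      (Module.Finite ℂ (S3 ⧸ (I ⊔ Ideal.span {u})) ∧
        Module.finrank ℂ (S3 ⧸ (I ⊔ Ideal.span {u})) = e) ↔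
      ∑ i, (φ i u).order = ((N * e : ℕ) : ℕ∞)

/-- regular sequences (helper25) -/
def RegP : Prop := ∀ a b l : S3, constantCoeff a = 0 → constantCoeff b = 0 → constantCoeff l = 0 →
  Module.Finite ℂ (S3 ⧸ (Ideal.span {a, b} ⊔ Ideal.span {l})) →
  ∀ x, l * x ∈ Ideal.span {a, b} → x ∈ Ideal.span {a, b}

theorem Fin'.mono {I J : Ideal S3} (h : Fin' I) (hIJ : I ≤ J) : Fin' J := by
  have h' : Module.Finite ℂ (S3 ⧸ I) := h
  exact Module.Finite.of_surjective (Ideal.Quotient.factorₐ ℂ hIJ).toLinearMap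
    (Ideal.Quotient.factor_surjective hIJ)

/-! ## orders -/

/-- the order, as a natural number -/
def od (p : Ps) : ℕ := p.order.toNat

theorem coe_od {p : Ps} (hp : p ≠ 0) : ((od p : ℕ) : ℕ∞) = p.order := by
  rw [od, ENat.natCast_toNat]
  rwa [Ne, PowerSeries.order_eq_top]

theorem od_mul {p q : Ps} (hp : p ≠ 0) (hq : q ≠ 0) : od (p * q) = od p + od q := by
  have h1 : ((od (p * q) : ℕ) : ℕ∞) = ((od p + od q : ℕ) : ℕ∞) := by
    rw [coe_od (mul_ne_zero hp hq), PowerSeries.order_mul]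
    push_cast
    rw [coe_od hp, coe_od hq]
  exact_mod_cast h1

theorem coeff_od {p : Ps} (hp : p ≠ 0) : PowerSeries.coeff (od p) p ≠ 0 :=
  PowerSeries.coeff_order hp

theorem coeff_lt_od {p : Ps} {n : ℕ} (h : n < od p) : PowerSeries.coeff n p = 0 := by
  apply PowerSeries.coeff_of_lt_order
  by_cases hp : p = 0
  · subst hp; simp
  · rw [← coe_od hp]
    exact_mod_cast h

theorem od_eq {p : Ps} {n : ℕ} (h1 : PowerSeries.coeff n p ≠ 0)
    (h2 : ∀ m < n, PowerSeries.coeff m p = 0) : od p = n := by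
  have hp : p ≠ 0 := by rintro rfl; simp at h1
  have h3 : od p ≤ n := by
    by_contra h
    push Not at h
    exact h1 (coeff_lt_od h)
  rcases Nat.lt_or_eq_of_le h3 with h | h
  · exact absurd (h2 _ h) (coeff_od hp)
  · exact h

theorem od_C_mul {c : ℂ} (hc : c ≠ 0) (p : Ps) : od (PowerSeries.C c * p) = od p := by
  by_cases hp : p = 0
  · subst hp; simp
  · refine od_eq ?_ fun m hm => ?_
    · rw [PowerSeries.coeff_C_mul]
      exact mul_ne_zero hc (coeff_od hp)
    · rw [PowerSeries.coeff_C_mul, coeff_lt_od hm, mul_zero]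

/-- the derivative -/
abbrev D (p : Ps) : Ps := PowerSeries.derivative ℂ p

theorem deriv_ne_zero {p : Ps} (hp : p ≠ 0) (h0 : PowerSeries.constantCoeff p = 0) :
    D p ≠ 0 ∧ od (D p) + 1 = od p := by
  have h1 : od p ≠ 0 := by
    intro h
    have h2 := coeff_od hp
    rw [h] at h2
    exact h2 (by simpa using h0)
  obtain ⟨n, hn⟩ := Nat.exists_eq_succ_of_ne_zero h1
  have h2 : PowerSeries.coeff n (D p) ≠ 0 := by
    rw [PowerSeries.coeff_derivative]
    have h3 := coeff_od hp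
    rw [hn] at h3
    refine mul_ne_zero h3 ?_
    exact_mod_cast Nat.succ_ne_zero n
  refine ⟨fun h => h2 (by rw [h]; simp), ?_⟩
  have h4 : od (D p) = n := by
    refine od_eq h2 fun m hm => ?_
    rw [PowerSeries.coeff_derivative, coeff_lt_od (by omega), zero_mul]
  rw [hn, h4]

theorem eq_zero_of_deriv {p : Ps} (h : D p = 0) (h0 : PowerSeries.constantCoeff p = 0) : p = 0 := by
  by_contra hp
  exact (deriv_ne_zero hp h0).1 h

/-! ## arcs -/

/-- a complete list of arcs of the curve `a = b = 0` -/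
structure Arcs (a b : S3) where
  N : ℕ
  N_pos : 0 < N
  k : ℕ
  φ : Fin k → (S3 →ₐ[ℂ] Ps)
  ha : ∀ i, φ i a = 0
  hb : ∀ i, φ i b = 0
  nt : ∀ i, ∃ j, φ i (X j) ≠ 0
  fin_iff : ∀ u : S3, Fin' (I3 a b u) ↔ ∀ i, φ i u ≠ 0
  dim : ∀ u : S3, Fin' (I3 a b u) → N * dm (I3 a b u) = ∑ i, od (φ i u)

theorem arc_nontrivial {φ : S3 →ₐ[ℂ] Ps} {l : S3} (hl : constantCoeff l = 0) (h : φ l ≠ 0) :
    ∃ j, φ (X j) ≠ 0 := by
  by_contra hall
  push Not at hall
  obtain ⟨q, hq⟩ := P298.H824.exists_sum_X l hl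
  apply h
  rw [hq, map_sum]
  exact Finset.sum_eq_zero fun i _ => by rw [map_mul, hall i, zero_mul]

theorem exists_arcs (hF : FordP) (hR : RegP) {a b l : S3} (ha : constantCoeff a = 0)
    (hb : constantCoeff b = 0) (hl : constantCoeff l = 0) (h : Fin' (I3 a b l)) :
    Nonempty (Arcs a b) := by
  obtain ⟨N, hN, k, φ, h1, h2, h3⟩ := hF (Ideal.span {a, b}) l hl h (hR a b l ha hb hl h)
  have hφl : ∀ i, φ i l ≠ 0 := fun i => by rw [h2]; exact pow_ne_zero _ PowerSeries.X_ne_zero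
  have hfin : ∀ u : S3, Fin' (I3 a b u) → (∀ i, φ i u ≠ 0) ∧
      N * dm (I3 a b u) = ∑ i, od (φ i u) := by
    intro u hu
    have h4 := (h3 u (dm (I3 a b u))).1 ⟨hu, rfl⟩
    have h5 : ∀ i, φ i u ≠ 0 := by
      intro i hi
      have h6 : (⊤ : ℕ∞) ≤ ∑ i, (φ i u).order := by
        have h7 : (φ i u).order = ⊤ := by rw [hi]; exact PowerSeries.order_zero
        rw [← h7]
        exact Finset.single_le_sum (f := fun i => (φ i u).order) (fun _ _ => bot_le)
          (Finset.mem_univ i)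
      rw [h4] at h6
      exact absurd (top_le_iff.1 h6) (ENat.natCast_ne_top _)
    refine ⟨h5, ?_⟩
    have h8 : ((N * dm (I3 a b u) : ℕ) : ℕ∞) = ((∑ i, od (φ i u) : ℕ) : ℕ∞) := by
      rw [← h4]
      push_cast
      exact Finset.sum_congr rfl fun i _ => (coe_od (h5 i)).symm
    exact_mod_cast h8
  refine ⟨⟨N, hN, k, φ, fun i => h1 i (Ideal.subset_span (by simp)),
    fun i => h1 i (Ideal.subset_span (by simp)), fun i => arc_nontrivial hl (hφl i),
    fun u => ⟨fun hu => (hfin u hu).1, fun hu => ?_⟩, fun u hu => (hfin u hu).2⟩⟩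
  -- a power of `u`
  have h9 : ∑ i, (φ i (u ^ N)).order = ((N * ∑ i, od (φ i u) : ℕ) : ℕ∞) := by
    push_cast
    rw [Finset.mul_sum]
    refine Finset.sum_congr rfl fun i _ => ?_
    rw [map_pow, PowerSeries.order_pow, coe_od (hu i), nsmul_eq_mul]
  have h10 := ((h3 (u ^ N) (∑ i, od (φ i u))).2 h9).1
  have h11 : Fin' (I3 a b (u ^ N)) := h10
  refine h11.mono (sup_le_sup le_rfl ?_)
  rw [Ideal.span_le, Set.singleton_subset_iff]
  exact Ideal.pow_mem_of_mem _ (Ideal.mem_span_singleton_self u) _ hN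

/-- an ideal of finite colength has no arc -/
theorem no_arc {I : Ideal S3} (hI : Fin' I) (φ : S3 →ₐ[ℂ] Ps) (hφ : I ≤ RingHom.ker φ)
    (j : Fin 3) : φ (X j) = 0 := by
  have hI' : Module.Finite ℂ (S3 ⧸ I) := hI
  -- `X j` is algebraic modulo `I`
  have h1 : IsIntegral ℂ (Ideal.Quotient.mk I (X j)) := Algebra.IsIntegral.isIntegral _
  obtain ⟨p, hp, hpX⟩ := h1
  have h2 : Polynomial.aeval (φ (X j)) p = 0 := by
    have h3 : Polynomial.aeval (X j : S3) p ∈ I := by
      rw [← Ideal.Quotient.eq_zero_iff_mem]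
      have h4 : (Ideal.Quotient.mkₐ ℂ I) (Polynomial.aeval (X j : S3) p) =
          Polynomial.aeval (Ideal.Quotient.mkₐ ℂ I (X j)) p :=
        (Polynomial.aeval_algHom_apply (Ideal.Quotient.mkₐ ℂ I) (X j) p).symm
      exact h4.trans hpX
    have h5 := hφ h3
    rw [RingHom.mem_ker] at h5
    rw [Polynomial.aeval_algHom_apply]
    exact h5
  by_contra hne
  -- the order of `p (φ X)`
  have hp0 : p ≠ 0 := hp.ne_zero
  obtain ⟨q, hq, hnd⟩ := Polynomial.exists_eq_pow_rootMultiplicity_mul_and_not_dvd p hp0 0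
  rw [Polynomial.C_0, sub_zero] at hq hnd
  rw [hq, map_mul, map_pow, Polynomial.aeval_X] at h2
  rcases mul_eq_zero.1 h2 with h | h
  · exact pow_ne_zero _ hne h
  · apply hnd
    rw [Polynomial.X_dvd_iff]
    have h6 := congrArg PowerSeries.constantCoeff h
    have h7 : PowerSeries.constantCoeff (φ (X j)) = 0 := by
      rw [P298.H824.constantCoeff_arc]; simp
    have h8 : PowerSeries.constantCoeff (Polynomial.aeval (φ (X j)) q) = q.coeff 0 := by
      obtain ⟨r, hr⟩ : (Polynomial.X : Polynomial ℂ) ∣ q - Polynomial.C (q.coeff 0) := by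
        rw [Polynomial.X_dvd_iff]; simp
      have h9 : q = Polynomial.C (q.coeff 0) + Polynomial.X * r := by rw [← hr]; ring
      conv_lhs => rw [h9]
      rw [map_add, map_mul, Polynomial.aeval_X, Polynomial.aeval_C, map_add, map_mul, h7, zero_mul,
        add_zero]
      simp
    rw [h8] at h6
    simpa using h6

end Vale.Agent.P298.H137
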