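import Vale.Agent.P298.H137.LG1

/-!
# P298, block LG: the invariant of a curve, Teissier's lemma, the symmetry
-/

open MvPowerSeries

noncomputable section

namespace Vale.Agent.P298.H137

/-! ## vector algebra -/

section
variable {R : Type*} [CommRing R]

/-- cross product -/
def cr (u v : Fin 3 → R) : Fin 3 → R :=
  ![u 1 * v 2 - u 2 * v 1, u 2 * v 0 - u 0 * v 2, u 0 * v 1 - u 1 * v 0]

/-- dot product -/
def dot (u v : Fin 3 → R) : R := u 0 * v 0 + u 1 * v 1 + u 2 * v 2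

/-- determinant -/
def det (u v w : Fin 3 → R) : R := dot (cr u v) w

theorem cr_zero (u v : Fin 3 → R) : cr u v 0 = u 1 * v 2 - u 2 * v 1 := rfl
theorem cr_one (u v : Fin 3 → R) : cr u v 1 = u 2 * v 0 - u 0 * v 2 := rfl
theorem cr_two (u v : Fin 3 → R) : cr u v 2 = u 0 * v 1 - u 1 * v 0 := rfl

theorem map_cr {T : Type*} [CommRing T] (φ : R →+* T) (u v : Fin 3 → R) (j : Fin 3) :
    φ (cr u v j) = cr (fun i => φ (u i)) (fun i => φ (v i)) j := by
  fin_cases j <;> simp [cr]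

theorem map_dot {T : Type*} [CommRing T] (φ : R →+* T) (u v : Fin 3 → R) :
    φ (dot u v) = dot (fun i => φ (u i)) (fun i => φ (v i)) := by
  simp [dot]

theorem map_det {T : Type*} [CommRing T] (φ : R →+* T) (u v w : Fin 3 → R) :
    φ (det u v w) = det (fun i => φ (u i)) (fun i => φ (v i)) (fun i => φ (w i)) := by
  simp [det, dot, cr]

end

/-- gradient -/
def gr (g : S3) : Fin 3 → S3 := fun i => pderiv ℂ i g

/-- Jacobian determinant -/
def jac (f e h : S3) : S3 := det (gr f) (gr e) (gr h)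

/-- linear form -/
def lin (z : Fin 3 → ℂ) : S3 := ∑ i, C (z i) * X i

/-- constant vector -/
def cv (z : Fin 3 → ℂ) : Fin 3 → S3 := fun i => C (z i)

theorem gr_lin (z : Fin 3 → ℂ) : gr (lin z) = cv z := by
  funext i
  simp only [gr, lin, cv, map_sum, Derivation.leibniz, pderiv_C, smul_eq_mul, mul_zero, add_zero]
  rw [Finset.sum_eq_single i]
  · rw [pderiv_X_self, mul_one]
  · intro j _ hj
    rw [pderiv_X_of_ne hj, mul_zero]
  · intro h
    exact absurd (Finset.mem_univ _) h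

theorem constantCoeff_lin (z : Fin 3 → ℂ) : constantCoeff (lin z) = 0 := by
  simp [lin]

theorem map_C (φ : S3 →ₐ[ℂ] Ps) (c : ℂ) : φ (C c) = PowerSeries.C c := by
  have := φ.commutes c
  rw [MvPowerSeries.algebraMap_apply, PowerSeries.algebraMap_apply] at this
  simpa using this

/-- the velocity -/
def vel (φ : S3 →ₐ[ℂ] Ps) : Fin 3 → Ps := fun i => D (φ (X i))

/-- the image of a gradient -/
def pg (φ : S3 →ₐ[ℂ] Ps) (g : S3) : Fin 3 → Ps := fun i => φ (gr g i)

theorem chain3 (φ : S3 →ₐ[ℂ] Ps) (g : S3) : D (φ g) = dot (pg φ g) (vel φ) := by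
  have h := P298.H824.chain φ g
  rw [Fin.sum_univ_three] at h
  exact h

theorem D_zero : D 0 = 0 := map_zero (PowerSeries.derivative ℂ)

theorem dot_vel_of_map_eq_zero {φ : S3 →ₐ[ℂ] Ps} {f : S3} (hf : φ f = 0) :
    dot (pg φ f) (vel φ) = 0 := by rw [← chain3, hf, D_zero]

theorem vel_ne (φ : S3 →ₐ[ℂ] Ps) (h : ∃ j, φ (X j) ≠ 0) : ∃ j, vel φ j ≠ 0 := by
  obtain ⟨j, hj⟩ := h
  refine ⟨j, fun h0 => hj (eq_zero_of_deriv h0 ?_)⟩
  rw [P298.H824.constantCoeff_arc]
  simp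

theorem map_jac (φ : S3 →ₐ[ℂ] Ps) (f e h : S3) : φ (jac f e h) = det (pg φ f) (pg φ e) (pg φ h) :=
  map_det (φ : S3 →+* Ps) _ _ _

theorem constantCoeff_map {φ : S3 →ₐ[ℂ] Ps} {g : S3} (hg : constantCoeff g = 0) :
    PowerSeries.constantCoeff (φ g) = 0 := by
  rw [P298.H824.constantCoeff_arc, hg]

/-! ## the invariant of a curve -/

/-- comparison along one arc of the curve -/
theorem arc_A {φ : S3 →ₐ[ℂ] Ps} (hφ : ∃ j, φ (X j) ≠ 0) {f e : S3} (hf : φ f = 0) (he : φ e = 0)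
    (h h' : S3) : φ (jac f e h) * D (φ h') = φ (jac f e h') * D (φ h) := by
  obtain ⟨j, hj⟩ := vel_ne φ hφ
  have h1 : dot (pg φ f) (vel φ) = 0 := dot_vel_of_map_eq_zero hf
  have h2 : dot (pg φ e) (vel φ) = 0 := dot_vel_of_map_eq_zero he
  have key : ∀ g : S3, vel φ j * φ (jac f e g) = cr (pg φ f) (pg φ e) j * D (φ g) := by
    intro g
    rw [map_jac, chain3]
    generalize pg φ f = a at h1 ⊢
    generalize pg φ e = b at h2 ⊢
    generalize pg φ g = c
    generalize vel φ = w at h1 h2 ⊢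
    simp only [dot] at h1 h2 ⊢
    fin_cases j
    · simp only [det, dot, cr_zero, cr_one, cr_two, Fin.zero_eta]
      linear_combination (b 1 * c 2 - b 2 * c 1) * h1 + (a 2 * c 1 - a 1 * c 2) * h2
    · simp only [det, dot, cr_zero, cr_one, cr_two, Fin.mk_one]
      linear_combination (b 2 * c 0 - b 0 * c 2) * h1 + (a 0 * c 2 - a 2 * c 0) * h2
    · simp only [det, dot, cr_zero, cr_one, cr_two, Fin.reduceFinMk]
      linear_combination (b 0 * c 1 - b 1 * c 0) * h1 + (a 1 * c 0 - a 0 * c 1) * h2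
  have h3 : vel φ j * (φ (jac f e h) * D (φ h')) = vel φ j * (φ (jac f e h') * D (φ h)) := by
    linear_combination D (φ h') * key h - D (φ h) * key h'
  exact mul_left_cancel₀ hj h3

/-- The number `i(f,e,jac(f,e,h)) - i(f,e,h)` does not depend on `h`. -/
theorem Arcs.invA {f e : S3} (𝒜 : Arcs f e) {h h' : S3} (ch : constantCoeff h = 0)
    (ch' : constantCoeff h' = 0) (fh : Fin' (I3 f e h)) (fh' : Fin' (I3 f e h'))
    (fJ : Fin' (I3 f e (jac f e h))) :
    Fin' (I3 f e (jac f e h')) ∧ dm (I3 f e (jac f e h)) + dm (I3 f e h') =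
      dm (I3 f e (jac f e h')) + dm (I3 f e h) := by
  have n1 := (𝒜.fin_iff h).1 fh
  have n2 := (𝒜.fin_iff h').1 fh'
  have n3 := (𝒜.fin_iff _).1 fJ
  have key : ∀ i, 𝒜.φ i (jac f e h') ≠ 0 ∧ od (𝒜.φ i (jac f e h)) + od (𝒜.φ i h') =
      od (𝒜.φ i (jac f e h')) + od (𝒜.φ i h) := by
    intro i
    have h1 := arc_A (𝒜.nt i) (𝒜.ha i) (𝒜.hb i) h h'
    obtain ⟨d1, d2⟩ := deriv_ne_zero (n1 i) (constantCoeff_map ch)
    obtain ⟨d3, d4⟩ := deriv_ne_zero (n2 i) (constantCoeff_map ch')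
    have h2 : 𝒜.φ i (jac f e h') ≠ 0 := by
      intro h0
      rw [h0, zero_mul] at h1
      exact mul_ne_zero (n3 i) d3 h1
    refine ⟨h2, ?_⟩
    have h3 := congrArg od h1
    rw [od_mul (n3 i) d3, od_mul h2 d1] at h3
    omega
  have f4 : Fin' (I3 f e (jac f e h')) := (𝒜.fin_iff _).2 fun i => (key i).1
  refine ⟨f4, ?_⟩
  have s1 := 𝒜.dim _ fh
  have s2 := 𝒜.dim _ fh'
  have s3 := 𝒜.dim _ fJ
  have s4 := 𝒜.dim _ f4
  have s5 : ∑ i, od (𝒜.φ i (jac f e h)) + ∑ i, od (𝒜.φ i h') =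
      ∑ i, od (𝒜.φ i (jac f e h')) + ∑ i, od (𝒜.φ i h) := by
    rw [← Finset.sum_add_distrib, ← Finset.sum_add_distrib]
    exact Finset.sum_congr rfl fun i _ => (key i).2
  rw [← s1, ← s2, ← s3, ← s4, ← mul_add, ← mul_add] at s5
  exact Nat.eq_of_mul_eq_mul_left 𝒜.N_pos s5

/-- Teissier's lemma, abstractly. -/
theorem Arcs.tei {a b : S3} (𝒜 : Arcs a b) {f g x : S3} (cf : constantCoeff f = 0)
    (cx : constantCoeff x = 0) {κ : ℂ} (hκ : κ ≠ 0)
    (hrel : ∀ i, PowerSeries.C κ * D (𝒜.φ i f) = 𝒜.φ i g * D (𝒜.φ i x)) :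
    (Fin' (I3 a b f) ↔ Fin' (I3 a b g) ∧ Fin' (I3 a b x)) ∧
      (Fin' (I3 a b f) → dm (I3 a b f) = dm (I3 a b g) + dm (I3 a b x)) := by
  have hC : (PowerSeries.C κ : Ps) ≠ 0 := by
    intro h
    have h1 := congrArg PowerSeries.constantCoeff h
    simp at h1
    exact hκ h1
  have hiff : Fin' (I3 a b f) ↔ Fin' (I3 a b g) ∧ Fin' (I3 a b x) := by
    rw [𝒜.fin_iff, 𝒜.fin_iff, 𝒜.fin_iff, ← forall_and]
    refine forall_congr' fun i => ?_
    have h1 := hrel i
    constructor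
    · intro hf
      obtain ⟨d1, -⟩ := deriv_ne_zero hf (constantCoeff_map cf)
      have h2 : 𝒜.φ i g * D (𝒜.φ i x) ≠ 0 := by
        rw [← h1]; exact mul_ne_zero hC d1
      refine ⟨left_ne_zero_of_mul h2, fun h3 => ?_⟩
      rw [h3, D_zero, mul_zero] at h2
      exact h2 rfl
    · rintro ⟨hg, hx⟩ hf
      rw [hf, D_zero, mul_zero] at h1
      exact mul_ne_zero hg (deriv_ne_zero hx (constantCoeff_map cx)).1 h1.symm
  refine ⟨hiff, fun ff => ?_⟩
  obtain ⟨fg, fx⟩ := hiff.1 ff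
  have n1 := (𝒜.fin_iff f).1 ff
  have n2 := (𝒜.fin_iff g).1 fg
  have n3 := (𝒜.fin_iff x).1 fx
  have key : ∀ i, od (𝒜.φ i f) = od (𝒜.φ i g) + od (𝒜.φ i x) := by
    intro i
    obtain ⟨d1, d2⟩ := deriv_ne_zero (n1 i) (constantCoeff_map cf)
    obtain ⟨d3, d4⟩ := deriv_ne_zero (n3 i) (constantCoeff_map cx)
    have h3 := congrArg od (hrel i)
    rw [od_C_mul hκ, od_mul (n2 i) d3] at h3
    omega
  have s1 := 𝒜.dim _ ff
  have s2 := 𝒜.dim _ fg
  have s3 := 𝒜.dim _ fx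
  have s5 : ∑ i, od (𝒜.φ i f) = ∑ i, od (𝒜.φ i g) + ∑ i, od (𝒜.φ i x) := by
    rw [← Finset.sum_add_distrib]
    exact Finset.sum_congr rfl fun i _ => key i
  rw [← s1, ← s2, ← s3, ← mul_add] at s5
  exact Nat.eq_of_mul_eq_mul_left 𝒜.N_pos s5

/-! ## the symmetry -/

/-- multiplication by a nonzerodivisor -/
theorem finrank_mul {I M : Ideal S3} {a : S3} (hIM : I ≤ M) (hreg : ∀ x, a * x ∈ I → x ∈ I)
    (hM : Fin' M) (ha : Fin' (I ⊔ Ideal.span {a})) :
    Fin' (I ⊔ Ideal.span {a} * M) ∧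
      dm (I ⊔ Ideal.span {a} * M) = dm (I ⊔ Ideal.span {a}) + dm M := by
  have hM' : Module.Finite ℂ (S3 ⧸ M) := hM
  have ha' : Module.Finite ℂ (S3 ⧸ (I ⊔ Ideal.span {a})) := ha
  set P := I ⊔ Ideal.span {a} * M with hP
  set Q := I ⊔ Ideal.span {a} with hQ
  have hPQ : P ≤ Q := sup_le_sup le_rfl Ideal.mul_le_left
  have hmem : ∀ x ∈ M, a * x ∈ P := fun x hx =>
    Ideal.mem_sup_right (Ideal.mul_mem_mul (Ideal.mem_span_singleton_self a) hx)
  -- the map `S / M → S / P`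
  let m0 : S3 →ₗ[ℂ] S3 ⧸ P := (Ideal.Quotient.mkₐ ℂ P).toLinearMap ∘ₗ LinearMap.mulLeft ℂ a
  have hm0 : ∀ x, m0 x = Ideal.Quotient.mk P (a * x) := fun x => rfl
  let MM : Submodule ℂ S3 := M.restrictScalars ℂ
  have hker : MM ≤ LinearMap.ker m0 := by
    intro x hx
    rw [LinearMap.mem_ker, hm0, Ideal.Quotient.eq_zero_iff_mem]
    exact hmem x hx
  let r : (S3 ⧸ P) →ₗ[ℂ] (S3 ⧸ Q) := (Ideal.Quotient.factorₐ ℂ hPQ).toLinearMap
  have hr : ∀ x, r (Ideal.Quotient.mk P x) = Ideal.Quotient.mk Q x := fun x => rfl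
  have hrs : Function.Surjective r := Ideal.Quotient.factor_surjective hPQ
  have hker0 : LinearMap.ker m0 = MM := by
    refine le_antisymm (fun x hx => ?_) hker
    rw [LinearMap.mem_ker, hm0, Ideal.Quotient.eq_zero_iff_mem, hP, Submodule.mem_sup] at hx
    obtain ⟨y, hy, z, hz, hyz⟩ := hx
    rw [Ideal.mem_span_singleton_mul] at hz
    obtain ⟨m, hm, rfl⟩ := hz
    have h1 : a * (x - m) ∈ I := by
      have : a * (x - m) = y := by rw [mul_sub, ← hyz]; ring
      rw [this]; exact hy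
    have h2 := Ideal.add_mem M (hIM (hreg _ h1)) hm
    rwa [sub_add_cancel] at h2
  have hrange : LinearMap.range m0 = LinearMap.ker r := by
    ext y
    constructor
    · rintro ⟨x, rfl⟩
      rw [LinearMap.mem_ker, hm0, hr, Ideal.Quotient.eq_zero_iff_mem]
      exact Ideal.mem_sup_right (Ideal.mul_mem_right _ _ (Ideal.mem_span_singleton_self a))
    · intro hy
      obtain ⟨x, rfl⟩ := Ideal.Quotient.mk_surjective y
      rw [LinearMap.mem_ker, hr, Ideal.Quotient.eq_zero_iff_mem, hQ, Submodule.mem_sup] at hy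
      obtain ⟨u, hu, v, hv, huv⟩ := hy
      rw [Ideal.mem_span_singleton'] at hv
      obtain ⟨t, rfl⟩ := hv
      refine ⟨t, ?_⟩
      rw [hm0, Ideal.Quotient.eq]
      have : a * t - x = -u := by rw [← huv]; ring
      rw [this]
      exact Ideal.neg_mem_iff _ |>.2 (Ideal.mem_sup_left hu)
  have e1 : (S3 ⧸ MM) ≃ₗ[ℂ] LinearMap.range m0 :=
    (Submodule.quotEquivOfEq _ _ hker0.symm).trans m0.quotKerEquivRange
  have hMf : Module.Finite ℂ (S3 ⧸ MM) := hM'
  have f1 : Module.Finite ℂ (LinearMap.range m0) := Module.Finite.equiv e1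
  have f2 : Module.Finite ℂ (LinearMap.ker r) := by rw [← hrange]; exact f1
  have f3 : Module.Finite ℂ (S3 ⧸ P) := by
    have e2 : ((S3 ⧸ P) ⧸ LinearMap.ker r) ≃ₗ[ℂ] (S3 ⧸ Q) :=
      r.quotKerEquivOfSurjective hrs
    have f4 : Module.Finite ℂ ((S3 ⧸ P) ⧸ LinearMap.ker r) := Module.Finite.equiv e2.symm
    exact Module.Finite.of_submodule_quotient (LinearMap.ker r)
  refine ⟨f3, ?_⟩
  have h3 := LinearMap.finrank_range_add_finrank_ker r
  rw [LinearMap.range_eq_top.2 hrs, finrank_top, ← hrange, ← e1.finrank_eq] at h3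
  exact h3.symm

/-- the ideal of the critical points on the surface -/
def Mn (f : S3) (u : Fin 3 → S3) : Ideal S3 := Ideal.span {f, u 0, u 1, u 2}

theorem dot_mem {f : S3} {u : Fin 3 → S3} (v : Fin 3 → S3) : dot u v ∈ Mn f u := by
  have h0 : u 0 ∈ Mn f u := Ideal.subset_span (by simp)
  have h1 : u 1 ∈ Mn f u := Ideal.subset_span (by simp)
  have h2 : u 2 ∈ Mn f u := Ideal.subset_span (by simp)
  exact Ideal.add_mem _ (Ideal.add_mem _ (Ideal.mul_mem_right _ _ h0) (Ideal.mul_mem_right _ _ h1))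
    (Ideal.mul_mem_right _ _ h2)

/-- The symmetry, first half. -/
theorem symm_ideal (hR : RegP) {f e e' : S3} (c : Fin 3 → ℂ) (cf : constantCoeff f = 0)
    (cg : ∀ i, constantCoeff (gr f i) = 0)
    (fu : Fin' (I3 f (jac f e e') (jac f e (lin c))))
    (fv : Fin' (I3 f (jac f e e') (jac f e' (lin c)))) :
    Fin' (Mn f (cr (gr f) (gr e))) ∧ Fin' (Mn f (cr (gr f) (gr e'))) ∧
      dm (I3 f (jac f e e') (jac f e (lin c))) + dm (Mn f (cr (gr f) (gr e'))) =
        dm (I3 f (jac f e e') (jac f e' (lin c))) + dm (Mn f (cr (gr f) (gr e))) := by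
  have cj : ∀ g g' : S3, constantCoeff (jac f g g') = 0 := by
    intro g g'
    simp only [jac, det, dot, cr_zero, cr_one, cr_two, map_add, map_mul, map_sub, cg]
    ring
  set u := cr (gr f) (gr e) with hu
  set v := cr (gr f) (gr e') with hv
  set J := jac f e e' with hJ
  have ju : jac f e (lin c) = dot u (cv c) := by rw [jac, gr_lin]; rfl
  have jv : jac f e' (lin c) = dot v (cv c) := by rw [jac, gr_lin]; rfl
  have hJu : J = dot u (gr e') := rfl
  have hJv : J = - dot v (gr e) := by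
    rw [hJ, hv]
    simp only [jac, det, dot, cr_zero, cr_one, cr_two]
    ring
  have hIu : Ideal.span {f, J} ≤ Mn f u := by
    rw [Ideal.span_le]
    rintro x (rfl | rfl)
    · exact Ideal.subset_span (by simp)
    · rw [hJu]; exact dot_mem _
  have hIv : Ideal.span {f, J} ≤ Mn f v := by
    rw [Ideal.span_le]
    rintro x (rfl | rfl)
    · exact Ideal.subset_span (by simp)
    · rw [hJv]; exact Ideal.neg_mem_iff _ |>.2 (dot_mem _)
  have hMu : Fin' (Mn f u) := by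
    refine fu.mono (sup_le hIu ?_)
    rw [Ideal.span_le, Set.singleton_subset_iff, ju]
    exact dot_mem _
  have hMv : Fin' (Mn f v) := by
    refine fv.mono (sup_le hIv ?_)
    rw [Ideal.span_le, Set.singleton_subset_iff, jv]
    exact dot_mem _
  obtain ⟨-, d1⟩ := finrank_mul hIv (hR f J (jac f e (lin c)) cf (cj _ _) (cj _ _) fu) hMv fu
  obtain ⟨-, d2⟩ := finrank_mul hIu (hR f J (jac f e' (lin c)) cf (cj _ _) (cj _ _) fv) hMu fv
  have hfI : f ∈ Ideal.span {f, J} := Ideal.subset_span (by simp)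
  have hJI : J ∈ Ideal.span {f, J} := Ideal.subset_span (by simp)
  -- the cross product of `u` and `v` is a multiple of `J`
  have hx : ∀ j, jac f e (lin c) * v j - jac f e' (lin c) * u j ∈ Ideal.span {f, J} := by
    intro j
    rw [ju, jv]
    fin_cases j
    · have : dot u (cv c) * v 0 - dot v (cv c) * u 0 = (cv c 1 * (-gr f 2) + cv c 2 * gr f 1) * J := by
        rw [hu, hv, hJ]
        simp only [jac, det, dot, cr_zero, cr_one, cr_two]
        ring
      simp only [Fin.zero_eta]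
      rw [this]
      exact Ideal.mul_mem_left _ _ hJI
    · have : dot u (cv c) * v 1 - dot v (cv c) * u 1 = (cv c 0 * gr f 2 - cv c 2 * gr f 0) * J := by
        rw [hu, hv, hJ]
        simp only [jac, det, dot, cr_zero, cr_one, cr_two]
        ring
      simp only [Fin.mk_one]
      rw [this]
      exact Ideal.mul_mem_left _ _ hJI
    · have : dot u (cv c) * v 2 - dot v (cv c) * u 2 = (cv c 1 * gr f 0 - cv c 0 * gr f 1) * J := by
        rw [hu, hv, hJ]
        simp only [jac, det, dot, cr_zero, cr_one, cr_two]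
        ring
      simp only [Fin.reduceFinMk]
      rw [this]
      exact Ideal.mul_mem_left _ _ hJI
  have hle : ∀ (a a' : S3) (w w' : Fin 3 → S3),
      (∀ j, a * w j - a' * w' j ∈ Ideal.span {f, J}) →
      Ideal.span {f, J} ⊔ Ideal.span {a} * Mn f w ≤
        Ideal.span {f, J} ⊔ Ideal.span {a'} * Mn f w' := by
    intro a a' w w' h
    refine sup_le le_sup_left ?_
    rw [Ideal.span_singleton_mul_le_iff]
    intro z hz
    have hj : ∀ j, a * w j ∈ Ideal.span {f, J} ⊔ Ideal.span {a'} * Mn f w' := by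
      intro j
      have h1 : a * w j = (a * w j - a' * w' j) + a' * w' j := by ring
      rw [h1]
      refine Ideal.add_mem _ (Ideal.mem_sup_left (h j)) (Ideal.mem_sup_right
        (Ideal.mul_mem_mul (Ideal.mem_span_singleton_self _) (Ideal.subset_span ?_)))
      fin_cases j <;> simp
    rw [Mn] at hz
    refine Submodule.span_induction (p := fun z _ => a * z ∈ Ideal.span {f, J} ⊔
      Ideal.span {a'} * Mn f w') ?_ ?_ ?_ ?_ hz
    · intro x hx
      simp only [Set.mem_insert_iff, Set.mem_singleton_iff] at hx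
      rcases hx with rfl | rfl | rfl | rfl
      · exact Ideal.mem_sup_left (Ideal.mul_mem_left _ _ hfI)
      · exact hj 0
      · exact hj 1
      · exact hj 2
    · rw [mul_zero]; exact Ideal.zero_mem _
    · intro x y _ _ hx hy
      rw [mul_add]; exact Ideal.add_mem _ hx hy
    · intro r x _ hx
      rw [smul_eq_mul, mul_left_comm]
      exact Ideal.mul_mem_left _ _ hx
  have heq : Ideal.span {f, J} ⊔ Ideal.span {jac f e (lin c)} * Mn f v =
      Ideal.span {f, J} ⊔ Ideal.span {jac f e' (lin c)} * Mn f u := by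
    refine le_antisymm (hle _ _ _ _ hx) (hle _ _ _ _ fun j => ?_)
    have := Ideal.neg_mem_iff _ |>.2 (hx j)
    rwa [neg_sub] at this
  refine ⟨hMu, hMv, ?_⟩
  rw [heq] at d1
  rw [d1] at d2
  exact d2

/-- the relation on the arcs of `f = jac(f,e,e') = 0` -/
theorem arc_B {φ : S3 →ₐ[ℂ] Ps} {f e e' : S3} (hf : φ f = 0) (hJ : φ (jac f e e') = 0)
    (c : Fin 3 → ℂ) : φ (jac f e (lin c)) * D (φ e') = φ (jac f e' (lin c)) * D (φ e) := by
  have h1 : dot (pg φ f) (vel φ) = 0 := dot_vel_of_map_eq_zero hf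
  rw [map_jac] at hJ
  rw [map_jac, map_jac, chain3, chain3]
  generalize pg φ f = a at h1 hJ ⊢
  generalize pg φ e = b at hJ ⊢
  generalize pg φ e' = b' at hJ ⊢
  generalize pg φ (lin c) = z
  generalize vel φ = w at h1 ⊢
  simp only [det, dot, cr_zero, cr_one, cr_two] at h1 hJ ⊢
  linear_combination (-(z 0 * (b 1 * b' 2 - b 2 * b' 1) + z 1 * (b 2 * b' 0 - b 0 * b' 2) +
    z 2 * (b 0 * b' 1 - b 1 * b' 0))) * h1 + (z 0 * w 0 + z 1 * w 1 + z 2 * w 2) * hJ

/-- The symmetry, second half. -/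
theorem Arcs.invB {f e e' : S3} (𝒜 : Arcs f (jac f e e')) (c : Fin 3 → ℂ)
    (ce : constantCoeff e = 0) (ce' : constantCoeff e' = 0)
    (fu : Fin' (I3 f (jac f e e') (jac f e (lin c))))
    (fv : Fin' (I3 f (jac f e e') (jac f e' (lin c))))
    (fe : Fin' (I3 f (jac f e e') e)) (fe' : Fin' (I3 f (jac f e e') e')) :
    dm (I3 f (jac f e e') (jac f e (lin c))) + dm (I3 f (jac f e e') e') =
      dm (I3 f (jac f e e') (jac f e' (lin c))) + dm (I3 f (jac f e e') e) := by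
  have n1 := (𝒜.fin_iff _).1 fu
  have n2 := (𝒜.fin_iff _).1 fv
  have n3 := (𝒜.fin_iff _).1 fe
  have n4 := (𝒜.fin_iff _).1 fe'
  have key : ∀ i, od (𝒜.φ i (jac f e (lin c))) + od (𝒜.φ i e') =
      od (𝒜.φ i (jac f e' (lin c))) + od (𝒜.φ i e) := by
    intro i
    obtain ⟨d1, d2⟩ := deriv_ne_zero (n3 i) (constantCoeff_map ce)
    obtain ⟨d3, d4⟩ := deriv_ne_zero (n4 i) (constantCoeff_map ce')
    have h3 := congrArg od (arc_B (𝒜.ha i) (𝒜.hb i) c)
    rw [od_mul (n1 i) d3, od_mul (n2 i) d1] at h3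
    omega
  have s1 := 𝒜.dim _ fu
  have s2 := 𝒜.dim _ fv
  have s3 := 𝒜.dim _ fe
  have s4 := 𝒜.dim _ fe'
  have s5 : ∑ i, od (𝒜.φ i (jac f e (lin c))) + ∑ i, od (𝒜.φ i e') =
      ∑ i, od (𝒜.φ i (jac f e' (lin c))) + ∑ i, od (𝒜.φ i e) := by
    rw [← Finset.sum_add_distrib, ← Finset.sum_add_distrib]
    exact Finset.sum_congr rfl fun i _ => key i
  rw [← s1, ← s2, ← s3, ← s4, ← mul_add, ← mul_add] at s5
  exact Nat.eq_of_mul_eq_mul_left 𝒜.N_pos s5

end Vale.Agent.P298.H137
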