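import Vale.Agent.P298.H137.LG2

/-!
# P298, block LG: Le-Greuel for formal power series
-/

open MvPowerSeries

noncomputable section

namespace Vale.Agent.P298.H137

/-! ## generic choices -/

/-- a vector outside finitely many proper subspaces -/
theorem avoid {E ι : Type} [AddCommGroup E] [Module ℂ E] [Finite ι] (p : ι → Submodule ℂ E)
    (h : ∀ i, p i ≠ ⊤) : ∃ z, ∀ i, z ∉ p i := by
  by_contra hall
  push Not at hall
  have h1 : ⋃ i, (p i : Set E) = Set.univ := by
    ext z
    simp only [Set.mem_iUnion, SetLike.mem_coe, Set.mem_univ, iff_true]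
    exact hall z
  obtain ⟨i, hi⟩ := Subspace.exists_eq_top_of_iUnion_eq_univ h1
  exact h i hi

/-- evaluation of a vector of series on constants -/
def ev (p : Fin 3 → Ps) : (Fin 3 → ℂ) →ₗ[ℂ] Ps where
  toFun z := z 0 • p 0 + z 1 • p 1 + z 2 • p 2
  map_add' z z' := by
    simp only [Pi.add_apply, add_smul]
    abel
  map_smul' c z := by
    simp only [Pi.smul_apply, smul_eq_mul, RingHom.id_apply, smul_add, mul_smul]

theorem ev_eq (p : Fin 3 → Ps) (z : Fin 3 → ℂ) :
    ev p z = dot p (fun i => PowerSeries.C (z i)) := by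
  simp only [ev, LinearMap.coe_mk, AddHom.coe_mk, dot, PowerSeries.smul_eq_C_mul]
  ring

theorem ker_ev_ne {p : Fin 3 → Ps} (h : ∃ j, p j ≠ 0) : LinearMap.ker (ev p) ≠ ⊤ := by
  obtain ⟨j, hj⟩ := h
  intro htop
  have h1 : Pi.single j (1 : ℂ) ∈ LinearMap.ker (ev p) := by rw [htop]; trivial
  rw [LinearMap.mem_ker] at h1
  apply hj
  rw [← h1]
  fin_cases j <;> simp [ev]

theorem map_lin (φ : S3 →ₐ[ℂ] Ps) (z : Fin 3 → ℂ) :
    φ (lin z) = ev (fun i => φ (X i)) z := by
  rw [ev_eq]
  simp only [lin, Fin.sum_univ_three, map_add, map_mul, map_C, dot]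
  ring

theorem pg_lin (φ : S3 →ₐ[ℂ] Ps) (z : Fin 3 → ℂ) :
    pg φ (lin z) = fun i => PowerSeries.C (z i) := by
  funext i
  rw [pg, gr_lin, cv, map_C]

theorem map_jac_lin (φ : S3 →ₐ[ℂ] Ps) (f e : S3) (x : Fin 3 → ℂ) :
    φ (jac f e (lin x)) = ev (cr (pg φ f) (pg φ e)) x := by
  rw [map_jac, ev_eq, pg_lin]
  rfl

/-- directional derivative -/
def dd (v : Fin 3 → ℂ) (g : S3) : S3 := dot (gr g) (cv v)

theorem map_dd (φ : S3 →ₐ[ℂ] Ps) (v : Fin 3 → ℂ) (g : S3) : φ (dd v g) = ev (pg φ g) v := by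
  have h := map_dot (φ : S3 →+* Ps) (gr g) (cv v)
  rw [ev_eq]
  refine h.trans ?_
  congr 1
  funext i
  exact map_C φ (v i)

theorem jac_lin_lin (f : S3) (z x : Fin 3 → ℂ) : jac f (lin z) (lin x) = dd (cr z x) f := by
  simp only [jac, gr_lin, dd, det, dot, cr_zero, cr_one, cr_two, cv, map_sub, map_mul]
  ring

/-! ## permutations -/

theorem I3_eq (a b c : S3) : I3 a b c = Ideal.span {a, b, c} := by
  rw [I3, ← Ideal.span_union]
  congr 1
  ext x
  simp only [Set.mem_union, Set.mem_insert_iff, Set.mem_singleton_iff]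
  tauto

theorem I3_s12 (a b c : S3) : I3 a b c = I3 b a c := by
  rw [I3_eq, I3_eq, Set.insert_comm]

theorem I3_s23 (a b c : S3) : I3 a b c = I3 a c b := by
  rw [I3_eq, I3_eq, Set.pair_comm]

theorem I3_s13 (a b c : S3) : I3 a b c = I3 c b a := by
  rw [I3_s12, I3_s23, I3_s12]

theorem I3_rot (a b c : S3) : I3 a b c = I3 b c a := by
  rw [I3_s12, I3_s23]

theorem I3_neg (a b c : S3) : I3 a b (-c) = I3 a b c := by
  rw [I3, I3]
  congr 1
  exact Ideal.span_singleton_neg c

/-- the gradient does not vanish along a nontrivial arc -/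
theorem grad_ne {f : S3} (hμ : Fin' (I3 (gr f 0) (gr f 1) (gr f 2))) {φ : S3 →ₐ[ℂ] Ps}
    (hφ : ∃ j, φ (X j) ≠ 0) : ∃ j, pg φ f j ≠ 0 := by
  by_contra hall
  push Not at hall
  obtain ⟨j, hj⟩ := hφ
  refine hj (no_arc hμ φ ?_ j)
  rw [I3_eq, Ideal.span_le]
  rintro x (rfl | rfl | rfl)
  · exact hall 0
  · exact hall 1
  · exact hall 2

theorem killed {a b c : S3} (h : Fin' (I3 a b c)) {φ : S3 →ₐ[ℂ] Ps} (hφ : ∃ j, φ (X j) ≠ 0)
    (ha : φ a = 0) (hb : φ b = 0) (hc : φ c = 0) : False := by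
  obtain ⟨j, hj⟩ := hφ
  refine hj (no_arc h φ ?_ j)
  rw [I3_eq, Ideal.span_le]
  rintro x (rfl | rfl | rfl)
  · exact ha
  · exact hb
  · exact hc

/-- the maximal ideal -/
theorem dm_max {z x y : Fin 3 → ℂ} (hD : det z x y ≠ 0) : dm (I3 (lin z) (lin x) (lin y)) = 1 := by
  have h1 : I3 (lin z) (lin x) (lin y) = RingHom.ker (constantCoeff (σ := Fin 3) (R := ℂ)) := by
    refine le_antisymm ?_ fun g hg => ?_
    · rw [I3_eq, Ideal.span_le]
      rintro g (rfl | rfl | rfl) <;> exact constantCoeff_lin _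
    · obtain ⟨q, rfl⟩ := P298.H824.exists_sum_X g hg
      refine Ideal.sum_mem _ fun i _ => Ideal.mul_mem_right _ _ ?_
      have hz : lin z ∈ I3 (lin z) (lin x) (lin y) := by
        rw [I3_eq]; exact Ideal.subset_span (by simp)
      have hx : lin x ∈ I3 (lin z) (lin x) (lin y) := by
        rw [I3_eq]; exact Ideal.subset_span (by simp)
      have hy : lin y ∈ I3 (lin z) (lin x) (lin y) := by
        rw [I3_eq]; exact Ideal.subset_span (by simp)
      have h2 : C (det z x y) * X i ∈ I3 (lin z) (lin x) (lin y) := by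
        have h3 : C (det z x y) * (X i : S3) = C (cr x y i) * lin z + C (cr y z i) * lin x +
            C (cr z x i) * lin y := by
          fin_cases i
          · simp only [lin, Fin.sum_univ_three, det, dot, cr_zero, cr_one, cr_two, map_sub, map_mul,
              map_add, Fin.zero_eta]
            ring
          · simp only [lin, Fin.sum_univ_three, det, dot, cr_zero, cr_one, cr_two, map_sub, map_mul,
              map_add, Fin.mk_one]
            ring
          · simp only [lin, Fin.sum_univ_three, det, dot, cr_zero, cr_one, cr_two, map_sub, map_mul,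
              map_add, Fin.reduceFinMk]
            ring
        rw [h3]
        exact Ideal.add_mem _ (Ideal.add_mem _ (Ideal.mul_mem_left _ _ hz)
          (Ideal.mul_mem_left _ _ hx)) (Ideal.mul_mem_left _ _ hy)
      have h4 := Ideal.mul_mem_left _ (C (det z x y)⁻¹) h2
      rw [← mul_assoc, ← map_mul, inv_mul_cancel₀ hD, map_one, one_mul] at h4
      exact h4
  rw [dm, h1]
  let c : S3 →ₗ[ℂ] ℂ := MvPowerSeries.coeff (R := ℂ) (0 : Fin 3 →₀ ℕ)
  have hc : Function.Surjective c := fun r => ⟨C r, by simp [c]⟩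
  have h5 : LinearMap.ker c = (RingHom.ker (constantCoeff (σ := Fin 3) (R := ℂ))).restrictScalars ℂ := by
    ext g
    simp [c, RingHom.mem_ker]
  have e : (S3 ⧸ (RingHom.ker (constantCoeff (σ := Fin 3) (R := ℂ))).restrictScalars ℂ) ≃ₗ[ℂ] ℂ :=
    (Submodule.quotEquivOfEq _ _ h5.symm).trans (c.quotKerEquivOfSurjective hc)
  have h6 := e.finrank_eq
  rw [Module.finrank_self] at h6
  exact h6

end Vale.Agent.P298.H137
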