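import Vale.Agent.P298.H137.LG3

/-!
# P298, block LG: Le-Greuel for formal power series, assembly
-/

open MvPowerSeries

noncomputable section

namespace Vale.Agent.P298.H137

/-- constant vectors of series -/
def cvp (z : Fin 3 → ℂ) : Fin 3 → Ps := fun i => PowerSeries.C (z i)

theorem C_det (z x y : Fin 3 → ℂ) : (PowerSeries.C (det z x y) : Ps) = det (cvp z) (cvp x) (cvp y) := by
  simp only [det, dot, cr_zero, cr_one, cr_two, cvp, map_add, map_mul, map_sub]

theorem cvp_cr (z x : Fin 3 → ℂ) (i : Fin 3) : cvp (cr z x) i = cr (cvp z) (cvp x) i := by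
  fin_cases i <;> simp [cvp, cr]

theorem D_lin (φ : S3 →ₐ[ℂ] Ps) (z : Fin 3 → ℂ) : D (φ (lin z)) = dot (cvp z) (vel φ) := by
  rw [chain3, pg_lin]
  rfl

theorem map_dd' (φ : S3 →ₐ[ℂ] Ps) (v : Fin 3 → ℂ) (g : S3) : φ (dd v g) = dot (pg φ g) (cvp v) := by
  rw [map_dd, ev_eq]
  rfl

theorem constantCoeff_dd {f : S3} (cg : ∀ i, constantCoeff (gr f i) = 0) (v : Fin 3 → ℂ) :
    constantCoeff (dd v f) = 0 := by
  simp [dd, dot, cg]

/-- relation along arcs of `z = x = 0` -/
theorem rel_zx {φ : S3 →ₐ[ℂ] Ps} {z x : Fin 3 → ℂ} (y : Fin 3 → ℂ) (f : S3) (hz : φ (lin z) = 0)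
    (hx : φ (lin x) = 0) :
    PowerSeries.C (det z x y) * D (φ f) = φ (dd (cr z x) f) * D (φ (lin y)) := by
  have h1 : dot (cvp z) (vel φ) = 0 := by rw [← D_lin, hz, D_zero]
  have h2 : dot (cvp x) (vel φ) = 0 := by rw [← D_lin, hx, D_zero]
  rw [C_det, chain3, map_dd', D_lin]
  simp only [dot, cvp_cr] at h1 h2 ⊢
  generalize cvp z = Z at h1 h2 ⊢
  generalize cvp x = X at h1 h2 ⊢
  generalize cvp y = Y at h1 h2 ⊢
  generalize pg φ f = a at h1 h2 ⊢
  generalize vel φ = w at h1 h2 ⊢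
  simp only [det, dot, cr_zero, cr_one, cr_two]
  linear_combination (a 0 * (X 1 * Y 2 - X 2 * Y 1) + a 1 * (X 2 * Y 0 - X 0 * Y 2) +
    a 2 * (X 0 * Y 1 - X 1 * Y 0)) * h1 + (a 0 * (Y 1 * Z 2 - Y 2 * Z 1) +
    a 1 * (Y 2 * Z 0 - Y 0 * Z 2) + a 2 * (Y 0 * Z 1 - Y 1 * Z 0)) * h2

/-- relation along arcs of `z = ∂f = 0` -/
theorem rel_zd {φ : S3 →ₐ[ℂ] Ps} {z x : Fin 3 → ℂ} (y : Fin 3 → ℂ) (f : S3) (hz : φ (lin z) = 0)
    (hd : φ (dd (cr z x) f) = 0) :
    PowerSeries.C (det z x y) * D (φ f) = φ (dd (cr y z) f) * D (φ (lin x)) := by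
  have h1 : dot (cvp z) (vel φ) = 0 := by rw [← D_lin, hz, D_zero]
  rw [map_dd'] at hd
  rw [C_det, chain3, map_dd', D_lin]
  simp only [dot, cvp_cr] at h1 hd ⊢
  generalize cvp z = Z at h1 hd ⊢
  generalize cvp x = X at h1 hd ⊢
  generalize cvp y = Y at h1 hd ⊢
  generalize pg φ f = a at h1 hd ⊢
  generalize vel φ = w at h1 hd ⊢
  simp only [det, dot, cr_zero, cr_one, cr_two] at hd ⊢
  linear_combination (a 0 * (X 1 * Y 2 - X 2 * Y 1) + a 1 * (X 2 * Y 0 - X 0 * Y 2) +
    a 2 * (X 0 * Y 1 - X 1 * Y 0)) * h1 + (Y 0 * w 0 + Y 1 * w 1 + Y 2 * w 2) * hd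

/-- relation along arcs of the polar curve -/
theorem rel_gamma {φ : S3 →ₐ[ℂ] Ps} {z x : Fin 3 → ℂ} (y : Fin 3 → ℂ) (f : S3)
    (h1 : φ (dd (cr y z) f) = 0) (h2 : φ (dd (cr z x) f) = 0) :
    PowerSeries.C (det z x y) * D (φ f) = φ (dd (cr x y) f) * D (φ (lin z)) := by
  rw [map_dd'] at h1 h2
  rw [C_det, chain3, map_dd', D_lin]
  simp only [dot, cvp_cr] at h1 h2 ⊢
  generalize cvp z = Z at h1 h2 ⊢
  generalize cvp x = X at h1 h2 ⊢
  generalize cvp y = Y at h1 h2 ⊢
  generalize pg φ f = a at h1 h2 ⊢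
  generalize vel φ = w at h1 h2 ⊢
  simp only [det, dot, cr_zero, cr_one, cr_two] at h1 h2 ⊢
  linear_combination (X 0 * w 0 + X 1 * w 1 + X 2 * w 2) * h1 +
    (Y 0 * w 0 + Y 1 * w 1 + Y 2 * w 2) * h2

/-- the derivative in a direction `v ⊥ z` along the polar curve -/
theorem rel_gamma_v {φ : S3 →ₐ[ℂ] Ps} {z x : Fin 3 → ℂ} (y : Fin 3 → ℂ) (f : S3)
    (h1 : φ (dd (cr y z) f) = 0) (h2 : φ (dd (cr z x) f) = 0) {v : Fin 3 → ℂ}
    (hv : dot z v = 0) : PowerSeries.C (det z x y) * φ (dd v f) = 0 := by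
  rw [map_dd'] at h1 h2
  rw [C_det, map_dd']
  have h3 : dot (cvp z) (cvp v) = 0 := by
    have := congrArg (PowerSeries.C (R := ℂ)) hv
    simpa [dot, cvp] using this
  simp only [dot, cvp_cr] at h1 h2 h3 ⊢
  generalize cvp z = Z at h1 h2 h3 ⊢
  generalize cvp x = X at h1 h2 h3 ⊢
  generalize cvp y = Y at h1 h2 h3 ⊢
  generalize cvp v = V at h1 h2 h3 ⊢
  generalize pg φ f = a at h1 h2 h3 ⊢
  simp only [det, dot, cr_zero, cr_one, cr_two] at h1 h2 ⊢
  linear_combination (X 0 * V 0 + X 1 * V 1 + X 2 * V 2) * h1 +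
    (Y 0 * V 0 + Y 1 * V 1 + Y 2 * V 2) * h2 +
    (a 0 * (X 1 * Y 2 - X 2 * Y 1) + a 1 * (X 2 * Y 0 - X 0 * Y 2) +
    a 2 * (X 0 * Y 1 - X 1 * Y 0)) * h3

/-- the gradient ideal in other directions -/
theorem grad_ideal {z x y : Fin 3 → ℂ} (hD : det z x y ≠ 0) (f : S3) :
    I3 (dd (cr y z) f) (dd (cr z x) f) (dd (cr x y) f) = I3 (gr f 0) (gr f 1) (gr f 2) := by
  rw [I3_eq, I3_eq]
  refine le_antisymm ?_ ?_
  · rw [Ideal.span_le]
    have h0 : gr f 0 ∈ Ideal.span {gr f 0, gr f 1, gr f 2} := Ideal.subset_span (by simp)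
    have h1 : gr f 1 ∈ Ideal.span {gr f 0, gr f 1, gr f 2} := Ideal.subset_span (by simp)
    have h2 : gr f 2 ∈ Ideal.span {gr f 0, gr f 1, gr f 2} := Ideal.subset_span (by simp)
    have key : ∀ v, dd v f ∈ Ideal.span {gr f 0, gr f 1, gr f 2} := fun v =>
      Ideal.add_mem _ (Ideal.add_mem _ (Ideal.mul_mem_right _ _ h0) (Ideal.mul_mem_right _ _ h1))
        (Ideal.mul_mem_right _ _ h2)
    rintro g (rfl | rfl | rfl) <;> exact key _
  · have h0 : dd (cr y z) f ∈ Ideal.span {dd (cr y z) f, dd (cr z x) f, dd (cr x y) f} :=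
      Ideal.subset_span (by simp)
    have h1 : dd (cr z x) f ∈ Ideal.span {dd (cr y z) f, dd (cr z x) f, dd (cr x y) f} :=
      Ideal.subset_span (by simp)
    have h2 : dd (cr x y) f ∈ Ideal.span {dd (cr y z) f, dd (cr z x) f, dd (cr x y) f} :=
      Ideal.subset_span (by simp)
    have key : ∀ i, gr f i ∈ Ideal.span {dd (cr y z) f, dd (cr z x) f, dd (cr x y) f} := by
      intro i
      have h3 : C (det z x y) * gr f i = C (x i) * dd (cr y z) f + C (y i) * dd (cr z x) f +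
          C (z i) * dd (cr x y) f := by
        fin_cases i
        · simp only [dd, det, dot, cr_zero, cr_one, cr_two, map_sub, map_mul, map_add, cv,
            Fin.zero_eta]
          ring
        · simp only [dd, det, dot, cr_zero, cr_one, cr_two, map_sub, map_mul, map_add, cv,
            Fin.mk_one]
          ring
        · simp only [dd, det, dot, cr_zero, cr_one, cr_two, map_sub, map_mul, map_add, cv,
            Fin.reduceFinMk]
          ring
      have h4 : C (det z x y) * gr f i ∈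
          Ideal.span {dd (cr y z) f, dd (cr z x) f, dd (cr x y) f} := by
        rw [h3]
        exact Ideal.add_mem _ (Ideal.add_mem _ (Ideal.mul_mem_left _ _ h0)
          (Ideal.mul_mem_left _ _ h1)) (Ideal.mul_mem_left _ _ h2)
      have h5 := Ideal.mul_mem_left _ (C (det z x y)⁻¹) h4
      rw [← mul_assoc, ← map_mul, inv_mul_cancel₀ hD, map_one, one_mul] at h5
      exact h5
    rw [Ideal.span_le]
    rintro g (rfl | rfl | rfl)
    · exact key 0
    · exact key 1
    · exact key 2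

/-- the critical points of a linear form on the surface -/
theorem Mn_lin {z x y : Fin 3 → ℂ} (hD : det z x y ≠ 0) (f : S3) :
    Mn f (cr (gr f) (gr (lin z))) = I3 (dd (cr y z) f) (dd (cr z x) f) f := by
  rw [gr_lin, I3_eq]
  set k := cr (gr f) (cv z) with hk
  refine le_antisymm ?_ ?_
  · have h0 : dd (cr y z) f ∈ Ideal.span {dd (cr y z) f, dd (cr z x) f, f} :=
      Ideal.subset_span (by simp)
    have h1 : dd (cr z x) f ∈ Ideal.span {dd (cr y z) f, dd (cr z x) f, f} :=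
      Ideal.subset_span (by simp)
    have h2 : f ∈ Ideal.span {dd (cr y z) f, dd (cr z x) f, f} := Ideal.subset_span (by simp)
    have key : ∀ i, k i ∈ Ideal.span {dd (cr y z) f, dd (cr z x) f, f} := by
      intro i
      have h3 : C (det z x y) * k i = C (cr y z i) * dd (cr z x) f - C (cr z x i) * dd (cr y z) f := by
        fin_cases i
        · simp only [hk, dd, det, dot, cr_zero, cr_one, cr_two, map_sub, map_mul, map_add, cv,
            Fin.zero_eta]
          ring
        · simp only [hk, dd, det, dot, cr_zero, cr_one, cr_two, map_sub, map_mul, map_add, cv,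
            Fin.mk_one]
          ring
        · simp only [hk, dd, det, dot, cr_zero, cr_one, cr_two, map_sub, map_mul, map_add, cv,
            Fin.reduceFinMk]
          ring
      have h4 : C (det z x y) * k i ∈ Ideal.span {dd (cr y z) f, dd (cr z x) f, f} := by
        rw [h3]
        exact Ideal.sub_mem _ (Ideal.mul_mem_left _ _ h1) (Ideal.mul_mem_left _ _ h0)
      have h5 := Ideal.mul_mem_left _ (C (det z x y)⁻¹) h4
      rw [← mul_assoc, ← map_mul, inv_mul_cancel₀ hD, map_one, one_mul] at h5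
      exact h5
    rw [Mn, Ideal.span_le]
    rintro g (rfl | rfl | rfl | rfl)
    · exact h2
    · exact key 0
    · exact key 1
    · exact key 2
  · rw [Ideal.span_le]
    rintro g (rfl | rfl | rfl)
    · have h1 : dd (cr y z) f = - dot k (cv y) := by
        simp only [hk, dd, dot, cr_zero, cr_one, cr_two, map_sub, map_mul, cv]
        ring
      rw [h1]
      exact Ideal.neg_mem_iff _ |>.2 (dot_mem _)
    · have h1 : dd (cr z x) f = dot k (cv x) := by
        simp only [hk, dd, dot, cr_zero, cr_one, cr_two, map_sub, map_mul, cv]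
        ring
      rw [h1]
      exact dot_mem _
    · exact Ideal.subset_span (by simp)

end Vale.Agent.P298.H137
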