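import Vale.Agent.P298.H137.LG4

/-!
# P298, block LG: the Le-Greuel formula for formal power series
-/

open MvPowerSeries

noncomputable section

namespace Vale.Agent.P298.H137

theorem cr_ne {v : Fin 3 → ℂ} (hv : v ≠ 0) : ∃ c, cr v c ≠ 0 := by
  by_contra hall
  push Not at hall
  apply hv
  have h0 := hall (Pi.single 0 1)
  have h1 := hall (Pi.single 1 1)
  funext i
  fin_cases i
  · have := congrFun h1 2
    simpa [cr] using this
  · have := congrFun h0 2
    simpa [cr] using this
  · have := congrFun h0 1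
    simpa [cr] using this

/-- vectors whose cross product with `v` vanishes -/
def parSub (v : Fin 3 → ℂ) : Submodule ℂ (Fin 3 → ℂ) where
  carrier := {c | cr v c = 0}
  zero_mem' := by
    simp only [Set.mem_ofPred_eq]
    funext i
    fin_cases i <;> simp [cr]
  add_mem' := by
    intro a b ha hb
    simp only [Set.mem_ofPred_eq] at ha hb ⊢
    have h : cr v (a + b) = cr v a + cr v b := by
      funext i
      fin_cases i <;> simp [cr] <;> ring
    rw [h, ha, hb, add_zero]
  smul_mem' := by
    intro c a ha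
    simp only [Set.mem_ofPred_eq] at ha ⊢
    have h : cr v (c • a) = c • cr v a := by
      funext i
      fin_cases i <;> simp [cr] <;> ring
    rw [h, ha, smul_zero]

theorem mem_parSub {v c : Fin 3 → ℂ} : c ∈ parSub v ↔ cr v c = 0 := Iff.rfl

theorem parSub_ne {v : Fin 3 → ℂ} (hv : v ≠ 0) : parSub v ≠ ⊤ := by
  intro h
  obtain ⟨c, hc⟩ := cr_ne hv
  exact hc (mem_parSub.1 (by rw [h]; trivial))

theorem exists_dot_ne {w : Fin 3 → ℂ} (hw : w ≠ 0) : ∃ y, dot w y ≠ 0 := by
  by_contra hall
  push Not at hall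
  apply hw
  funext i
  fin_cases i
  · simpa [dot] using hall (Pi.single 0 1)
  · simpa [dot] using hall (Pi.single 1 1)
  · simpa [dot] using hall (Pi.single 2 1)

/-- choice of a linear form -/
theorem exists_form (hF : FordP) (hR : RegP) {f e h : S3} (cf : constantCoeff f = 0)
    (ce : constantCoeff e = 0) (ch : constantCoeff h = 0) (cg : ∀ i, constantCoeff (gr f i) = 0)
    (hμ : Fin' (I3 (gr f 0) (gr f 1) (gr f 2))) (fh : Fin' (I3 f e h)) :
    ∃ z : Fin 3 → ℂ, z ≠ 0 ∧ Fin' (I3 f e (lin z)) ∧ ∀ x y : Fin 3 → ℂ, det z x y ≠ 0 →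
      Fin' (I3 (dd (cr y z) f) (dd (cr z x) f) (lin z)) := by
  obtain ⟨𝒜⟩ := exists_arcs hF hR cf ce ch fh
  -- the direction `v`
  obtain ⟨v, hv⟩ := avoid (fun o : Option (Fin 𝒜.k) => match o with
    | none => (⊥ : Submodule ℂ (Fin 3 → ℂ))
    | some i => LinearMap.ker (ev (pg (𝒜.φ i) f))) (by
      rintro (_ | i)
      · exact bot_ne_top
      · exact ker_ev_ne (grad_ne hμ (𝒜.nt i)))
  have hv0 : v ≠ 0 := by simpa using hv none
  have hvi : ∀ i, 𝒜.φ i (dd v f) ≠ 0 := by
    intro i h0
    have h1 := hv (some i)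
    simp only [LinearMap.mem_ker] at h1
    rw [map_dd] at h0
    exact h1 h0
  have fv : Fin' (I3 f e (dd v f)) := (𝒜.fin_iff _).2 hvi
  have cdv : constantCoeff (dd v f) = 0 := constantCoeff_dd cg v
  rw [I3_s23] at fv
  obtain ⟨𝒬⟩ := exists_arcs hF hR cf cdv ce fv
  -- the form `z = v × c`
  have hpar : ∀ i, ∃ j, cr (cvp v) (fun i' => 𝒜.φ i (X i')) j ≠ 0 := by
    intro i
    by_contra hall
    push Not at hall
    obtain ⟨j, hj⟩ := vel_ne (𝒜.φ i) (𝒜.nt i)
    -- `w × v = 0`
    have hw : ∀ l m : Fin 3, cvp v l * vel (𝒜.φ i) m = cvp v m * vel (𝒜.φ i) l := by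
      have hX : ∀ l m : Fin 3, cvp v l * (𝒜.φ i (X m)) = cvp v m * (𝒜.φ i (X l)) := by
        have a0 := hall 0
        have a1 := hall 1
        have a2 := hall 2
        simp only [cr_zero, cr_one, cr_two] at a0 a1 a2
        intro l m
        fin_cases l <;> fin_cases m <;> simp only [Fin.zero_eta, Fin.mk_one, Fin.reduceFinMk]
        · linear_combination a2
        · linear_combination (-1 : Ps) * a1
        · linear_combination (-1 : Ps) * a2
        · linear_combination a0
        · linear_combination a1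
        · linear_combination (-1 : Ps) * a0
      intro l m
      have h1 := congrArg D (hX l m)
      simp only [cvp, D, ← PowerSeries.smul_eq_C_mul] at h1
      rw [Derivation.map_smul, Derivation.map_smul] at h1
      simp only [cvp, vel, D, ← PowerSeries.smul_eq_C_mul]
      exact h1
    have h2 : dot (pg (𝒜.φ i) f) (vel (𝒜.φ i)) = 0 := dot_vel_of_map_eq_zero (𝒜.ha i)
    have h3 : 𝒜.φ i (dd v f) * vel (𝒜.φ i) j = 0 := by
      rw [map_dd']
      have e0 := hw 0 j
      have e1 := hw 1 j
      have e2 := hw 2 j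
      simp only [dot] at h2 ⊢
      linear_combination (pg (𝒜.φ i) f 0) * e0 + (pg (𝒜.φ i) f 1) * e1 + (pg (𝒜.φ i) f 2) * e2 +
        cvp v j * h2
    exact mul_ne_zero (hvi i) hj h3
  obtain ⟨c, hc⟩ := avoid (fun o : Option (Fin 𝒜.k ⊕ Fin 𝒬.k) => match o with
    | none => parSub v
    | some (Sum.inl i) => LinearMap.ker (ev (cr (fun i' => 𝒜.φ i (X i')) (cvp v)))
    | some (Sum.inr i) => LinearMap.ker (ev (pg (𝒬.φ i) f))) (by
      rintro (_ | i | i)
      · exact parSub_ne hv0
      · refine ker_ev_ne ?_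
        obtain ⟨j, hj⟩ := hpar i
        refine ⟨j, fun h0 => hj ?_⟩
        have : cr (cvp v) (fun i' => 𝒜.φ i (X i')) j = - cr (fun i' => 𝒜.φ i (X i')) (cvp v) j := by
          fin_cases j <;> simp [cr] <;> ring
        rw [this, h0, neg_zero]
      · exact ker_ev_ne (grad_ne hμ (𝒬.nt i)))
  set z := cr v c with hz
  have hz0 : z ≠ 0 := fun h => hc none (mem_parSub.2 h)
  have hzv : dot z v = 0 := by
    rw [hz]
    simp only [dot, cr_zero, cr_one, cr_two]
    ring
  have fz : Fin' (I3 f e (lin z)) := by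
    refine (𝒜.fin_iff _).2 fun i h0 => ?_
    have h1 := hc (some (Sum.inl i))
    simp only [LinearMap.mem_ker] at h1
    apply h1
    rw [map_lin, ev_eq] at h0
    rw [ev_eq, ← h0]
    simp only [dot, cr_zero, cr_one, cr_two, hz, cvp, map_sub, map_mul]
    ring
  -- the gradient is not parallel to `z` on the arcs of `f = ∂_v f = 0`
  obtain ⟨τ, hτ⟩ := avoid (fun i : Fin 𝒬.k =>
    LinearMap.ker (ev (cr (pg (𝒬.φ i) f) (cvp z)))) (by
      intro i
      refine ker_ev_ne ?_
      by_contra hall
      push Not at hall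
      have h1 := hc (some (Sum.inr i))
      simp only [LinearMap.mem_ker] at h1
      obtain ⟨j, hj⟩ : ∃ j, v j ≠ 0 := by
        by_contra h
        push Not at h
        exact hv0 (funext h)
      have h2 : dot (pg (𝒬.φ i) f) (cvp v) = 0 := by rw [← map_dd', 𝒬.hb i]
      have h3 : cvp v j * ev (pg (𝒬.φ i) f) c = 0 := by
        rw [ev_eq]
        have a0 := hall 0
        have a1 := hall 1
        have a2 := hall 2
        have hzc : ∀ i, cvp z i = cr (cvp v) (cvp c) i := fun i => by rw [hz, cvp_cr]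
        simp only [cr_zero, cr_one, cr_two, hzc] at a0 a1 a2
        simp only [dot] at h2 ⊢
        change cvp v j * (pg (𝒬.φ i) f 0 * cvp c 0 + pg (𝒬.φ i) f 1 * cvp c 1 +
          pg (𝒬.φ i) f 2 * cvp c 2) = 0
        generalize pg (𝒬.φ i) f = g at *
        generalize cvp c = cc at *
        generalize cvp v = vv at *
        fin_cases j
        · simp only [Fin.zero_eta]
          linear_combination a0 + cc 0 * h2
        · simp only [Fin.mk_one]
          linear_combination a1 + cc 1 * h2
        · simp only [Fin.reduceFinMk]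
          linear_combination a2 + cc 2 * h2
      have h4 : cvp v j ≠ 0 := by
        intro h
        have := congrArg PowerSeries.constantCoeff h
        simp [cvp] at this
        exact hj this
      exact h1 ((mul_eq_zero.1 h3).resolve_left h4))
  have fτ : Fin' (I3 f (dd v f) (jac f (lin z) (lin τ))) := by
    refine (𝒬.fin_iff _).2 fun i h0 => ?_
    have h1 := hτ i
    simp only [LinearMap.mem_ker] at h1
    apply h1
    rw [map_jac_lin, pg_lin] at h0
    exact h0
  refine ⟨z, hz0, fz, fun x y hD => ?_⟩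
  have fG : Fin' (I3 (dd (cr y z) f) (dd (cr z x) f) (dd (cr x y) f)) := by
    rw [grad_ideal hD]; exact hμ
  obtain ⟨𝒢⟩ := exists_arcs hF hR (constantCoeff_dd cg _) (constantCoeff_dd cg _)
    (constantCoeff_dd cg _) fG
  refine (𝒢.fin_iff _).2 fun i h0 => ?_
  have hCD : (PowerSeries.C (det z x y) : Ps) ≠ 0 := by
    intro h
    have := congrArg PowerSeries.constantCoeff h
    simp at this
    exact hD this
  have r1 := rel_gamma y f (𝒢.ha i) (𝒢.hb i)
  rw [h0, D_zero, mul_zero] at r1
  have r2 : D (𝒢.φ i f) = 0 := (mul_eq_zero.1 r1).resolve_left hCD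
  have r3 : 𝒢.φ i f = 0 := eq_zero_of_deriv r2 (constantCoeff_map cf)
  have r4 : 𝒢.φ i (dd v f) = 0 :=
    (mul_eq_zero.1 (rel_gamma_v y f (𝒢.ha i) (𝒢.hb i) hzv)).resolve_left hCD
  have r5 : 𝒢.φ i (jac f (lin z) (lin τ)) = 0 := by
    rw [jac_lin_lin]
    refine (mul_eq_zero.1 (rel_gamma_v y f (𝒢.ha i) (𝒢.hb i) ?_)).resolve_left hCD
    simp only [dot, cr_zero, cr_one, cr_two]
    ring
  exact killed fτ (𝒢.nt i) r3 r4 r5

end Vale.Agent.P298.H137
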