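import Vale.Agent.P298.H137.LG5

/-!
# P298, block LG: the Le-Greuel formula for formal power series
-/

open MvPowerSeries

noncomputable section

namespace Vale.Agent.P298.H137

theorem jac_swap (f e h : S3) : jac f h e = - jac f e h := by
  simp only [jac, det, dot, cr_zero, cr_one, cr_two]
  ring

/-- if the gradients of `f` and `e` are parallel along an arc of `f = 0`, then `e = 0` there -/
theorem arc_parallel {φ : S3 →ₐ[ℂ] Ps} {f e : S3} (hf : φ f = 0) (ce : constantCoeff e = 0)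
    (hg : ∃ j, pg φ f j ≠ 0) (hpar : ∀ j, cr (pg φ f) (pg φ e) j = 0) : φ e = 0 := by
  obtain ⟨j, hj⟩ := hg
  have h1 : dot (pg φ f) (vel φ) = 0 := dot_vel_of_map_eq_zero hf
  have h2 : pg φ f j * D (φ e) = 0 := by
    rw [chain3]
    have a0 := hpar 0
    have a1 := hpar 1
    have a2 := hpar 2
    simp only [cr_zero, cr_one, cr_two] at a0 a1 a2
    simp only [dot] at h1 ⊢
    generalize pg φ f = a at *
    generalize pg φ e = b at *
    generalize vel φ = w at *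
    fin_cases j
    · simp only [Fin.zero_eta]
      linear_combination b 0 * h1 + w 1 * a2 - w 2 * a1
    · simp only [Fin.mk_one]
      linear_combination b 1 * h1 - w 0 * a2 + w 2 * a0
    · simp only [Fin.reduceFinMk]
      linear_combination b 2 * h1 + w 0 * a1 - w 1 * a0
  exact eq_zero_of_deriv ((mul_eq_zero.1 h2).resolve_left hj) (constantCoeff_map ce)

/-- **Le-Greuel formula**, formal version. -/
theorem leGreuel (hF : FordP) (hR : RegP) {f e h : S3} (cf : constantCoeff f = 0)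
    (ce : constantCoeff e = 0) (ch : constantCoeff h = 0) (cg : ∀ i, constantCoeff (gr f i) = 0)
    (hμ : Fin' (I3 (gr f 0) (gr f 1) (gr f 2))) (fh : Fin' (I3 f e h))
    (fJ : Fin' (I3 f e (jac f e h))) :
    Fin' (Mn f (cr (gr f) (gr e))) ∧ dm (Mn f (cr (gr f) (gr e))) + dm (I3 f e h) =
      dm (I3 (gr f 0) (gr f 1) (gr f 2)) + 1 + dm (I3 f e (jac f e h)) := by
  have cj : ∀ g g' : S3, constantCoeff (jac f g g') = 0 := by
    intro g g'
    simp only [jac, det, dot, cr_zero, cr_one, cr_two, map_add, map_mul, map_sub, cg]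
    ring
  obtain ⟨z, hz0, fz, hG⟩ := exists_form hF hR cf ce ch cg hμ fh
  have cz := constantCoeff_lin z
  obtain ⟨𝒜⟩ := exists_arcs hF hR cf ce ch fh
  obtain ⟨fJz, rA⟩ := 𝒜.invA ch cz fh fz fJ
  -- arcs of `f = z = 0`
  have fz' : Fin' (I3 f (lin z) e) := by rw [I3_s23]; exact fz
  obtain ⟨𝒵⟩ := exists_arcs hF hR cf cz ce fz'
  obtain ⟨x, hx⟩ := avoid (fun o : Option (Fin 𝒵.k) => match o with
    | none => parSub z
    | some i => LinearMap.ker (ev (fun i' => 𝒵.φ i (X i')))) (by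
      rintro (_ | i)
      · exact parSub_ne hz0
      · exact ker_ev_ne (𝒵.nt i))
  have hzx : cr z x ≠ 0 := fun h0 => hx none (mem_parSub.2 h0)
  obtain ⟨y, hy⟩ := exists_dot_ne hzx
  have hD : det z x y ≠ 0 := hy
  have cx := constantCoeff_lin x
  have cy := constantCoeff_lin y
  have fzx : Fin' (I3 f (lin z) (lin x)) := by
    refine (𝒵.fin_iff _).2 fun i h0 => ?_
    have h1 := hx (some i)
    simp only [LinearMap.mem_ker] at h1
    exact h1 (by rw [← map_lin]; exact h0)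
  have cd : ∀ v, constantCoeff (dd v f) = 0 := constantCoeff_dd cg
  have fG := hG x y hD
  -- plane curve
  have fzxf : Fin' (I3 (lin z) (lin x) f) := by rw [I3_rot] at fzx; exact fzx
  obtain ⟨ℬ⟩ := exists_arcs hF hR cz cx cf fzxf
  obtain ⟨t1, t1'⟩ := ℬ.tei (f := f) (g := dd (cr z x) f) (x := lin y) cf cy hD
    (fun i => rel_zx y f (ℬ.ha i) (ℬ.hb i))
  have t1'' := t1' fzxf
  obtain ⟨fzxd, -⟩ := t1.1 fzxf
  rw [dm_max hD] at t1''
  have fzdx : Fin' (I3 (lin z) (dd (cr z x) f) (lin x)) := by rw [I3_s23]; exact fzxd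
  have fzdd : Fin' (I3 (lin z) (dd (cr z x) f) (dd (cr y z) f)) := by
    rw [I3_s13]; exact fG
  obtain ⟨𝒞⟩ := exists_arcs hF hR cz (cd _) cx fzdx
  obtain ⟨t2, t2'⟩ := 𝒞.tei (f := f) (g := dd (cr y z) f) (x := lin x) cf cx hD
    (fun i => rel_zd y f (𝒞.ha i) (𝒞.hb i))
  have fzdf := t2.2 ⟨fzdd, fzdx⟩
  have t2'' := t2' fzdf
  -- the pair `(f, z)`
  have fzJ : Fin' (I3 f (lin z) (jac f (lin z) (lin x))) := by
    rw [jac_lin_lin, I3_rot]
    exact fzdf
  obtain ⟨fzJe, rZ⟩ := 𝒵.invA cx ce fzx fz' fzJ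
  -- the polar curve
  have hΓ : Fin' (I3 (dd (cr y z) f) (dd (cr z x) f) (dd (cr x y) f)) := by
    rw [grad_ideal hD]; exact hμ
  obtain ⟨𝒢⟩ := exists_arcs hF hR (cd _) (cd _) (cd _) hΓ
  obtain ⟨t3, t3'⟩ := 𝒢.tei (f := f) (g := dd (cr x y) f) (x := lin z) cf cz hD
    (fun i => rel_gamma y f (𝒢.ha i) (𝒢.hb i))
  have t3'' := t3' (t3.2 ⟨hΓ, fG⟩)
  -- the curve `f = J = 0`
  have fJe : Fin' (I3 f (jac f e (lin z)) e) := by rw [I3_s23]; exact fJz
  have fJz' : Fin' (I3 f (jac f e (lin z)) (lin z)) := by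
    have h1 := fzJe
    rw [jac_swap, I3_neg, I3_s23] at h1
    exact h1
  obtain ⟨𝒥⟩ := exists_arcs hF hR cf (cj _ _) cz fJz'
  obtain ⟨c, hc⟩ := avoid (fun o : Fin 𝒥.k ⊕ Fin 𝒥.k => match o with
    | Sum.inl i => LinearMap.ker (ev (cr (pg (𝒥.φ i) f) (pg (𝒥.φ i) e)))
    | Sum.inr i => LinearMap.ker (ev (cr (pg (𝒥.φ i) f) (pg (𝒥.φ i) (lin z))))) (by
      rintro (i | i)
      · refine ker_ev_ne ?_
        by_contra hall
        push Not at hall
        have h1 := arc_parallel (𝒥.ha i) ce (grad_ne hμ (𝒥.nt i)) hall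
        exact killed fJe (𝒥.nt i) (𝒥.ha i) (𝒥.hb i) h1
      · refine ker_ev_ne ?_
        by_contra hall
        push Not at hall
        have h1 := arc_parallel (𝒥.ha i) cz (grad_ne hμ (𝒥.nt i)) hall
        exact killed fJz' (𝒥.nt i) (𝒥.ha i) (𝒥.hb i) h1)
  have fu : Fin' (I3 f (jac f e (lin z)) (jac f e (lin c))) := by
    refine (𝒥.fin_iff _).2 fun i h0 => ?_
    have h1 := hc (Sum.inl i)
    simp only [LinearMap.mem_ker] at h1
    exact h1 (by rw [← map_jac_lin]; exact h0)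
  have fv : Fin' (I3 f (jac f e (lin z)) (jac f (lin z) (lin c))) := by
    refine (𝒥.fin_iff _).2 fun i h0 => ?_
    have h1 := hc (Sum.inr i)
    simp only [LinearMap.mem_ker] at h1
    exact h1 (by rw [← map_jac_lin]; exact h0)
  obtain ⟨fM, -, rS⟩ := symm_ideal hR c cf cg fu fv
  have rS' := 𝒥.invB c ce cz fu fv fJe fJz'
  refine ⟨fM, ?_⟩
  -- bookkeeping
  rw [Mn_lin hD] at rS
  rw [grad_ideal hD] at t3''
  have p1 : dm (I3 f (lin z) e) = dm (I3 f e (lin z)) := by rw [I3_s23]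
  have p2 : dm (I3 f (lin z) (jac f (lin z) e)) = dm (I3 f (jac f e (lin z)) (lin z)) := by
    rw [jac_swap, I3_neg, I3_s23]
  have p3 : dm (I3 f (lin z) (jac f (lin z) (lin x))) = dm (I3 (lin z) (dd (cr z x) f) f) := by
    rw [jac_lin_lin, I3_rot]
  have p4 : dm (I3 (lin z) (dd (cr z x) f) (dd (cr y z) f)) =
      dm (I3 (dd (cr y z) f) (dd (cr z x) f) (lin z)) := by rw [I3_s13]
  have p5 : dm (I3 (lin z) (dd (cr z x) f) (lin x)) = dm (I3 (lin z) (lin x) (dd (cr z x) f)) := by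
    rw [I3_s23]
  have p6 : dm (I3 f (lin z) (lin x)) = dm (I3 (lin z) (lin x) f) := by rw [I3_rot]
  have p7 : dm (I3 f (jac f e (lin z)) e) = dm (I3 f e (jac f e (lin z))) := by rw [I3_s23]
  rw [p1, p2, p3, p6] at rZ
  rw [p4, p5] at t2''
  rw [p7] at rS'
  omega

end Vale.Agent.P298.H137
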