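import Vale.Agent.P298.H137.LG6
import Vale.Agent.P298.H25.CM
import Vale.Agent.P298.H766.Form

/-!
# P298, block LG: the Le-Greuel formula for germs
-/

open MvPowerSeries

noncomputable section

namespace Vale.Agent.P298.H137

open Vale.Agent.P298 Vale.Agent.P298.H766

theorem regP : RegP := by
  intro a b l ha hb hl hfin x hx
  have h := H25.mem_of_mul_mem (m := 2) ![a, b] l
    (by intro i; fin_cases i <;> simpa) hl
    (by rw [Matrix.range_cons_cons_empty]; exact hfin) x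
  rw [Matrix.range_cons_cons_empty] at h
  exact h hx

theorem fordP (h : FordT) : FordP := fun I l h1 h2 h3 => h 3 I l h1 h2 h3

variable {f e h : (Fin 3 → ℂ) → ℂ}

theorem serIdeal_three (a b c : (Fin 3 → ℂ) → ℂ) :
    serIdeal ![a, b, c] = I3 (ser a) (ser b) (ser c) := by
  rw [serIdeal, I3, ← Ideal.span_union]
  congr 1
  ext x
  constructor
  · rintro ⟨j, rfl⟩
    fin_cases j
    · exact Or.inl (Or.inl rfl)
    · exact Or.inl (Or.inr rfl)
    · exact Or.inr rfl
  · rintro ((rfl | rfl) | rfl)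
    · exact ⟨0, rfl⟩
    · exact ⟨1, rfl⟩
    · exact ⟨2, rfl⟩

theorem ser_minor2 (hf : Hol f) (he : Hol e) (i j : Fin 3) :
    ser (minor2 i j f e) = gr (ser f) i * gr (ser e) j - gr (ser f) j * gr (ser e) i := by
  have h1 : minor2 i j f e = fun x => (fun x => pd i f x * pd j e x) x -
      (fun x => pd j f x * pd i e x) x := rfl
  rw [h1, ser_sub (by exact AnalyticAt.mul (hol_pd hf i) (hol_pd he j))
    (by exact AnalyticAt.mul (hol_pd hf j) (hol_pd he i)),
    ser_mul (hol_pd hf i) (hol_pd he j), ser_mul (hol_pd hf j) (hol_pd he i),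
    ser_pd hf, ser_pd he, ser_pd hf, ser_pd he]
  rfl

theorem hol_minor2 (hf : Hol f) (he : Hol e) (i j : Fin 3) : Hol (minor2 i j f e) :=
  AnalyticAt.sub (AnalyticAt.mul (hol_pd hf i) (hol_pd he j))
    (AnalyticAt.mul (hol_pd hf j) (hol_pd he i))

theorem jac3_eq (f e h : (Fin 3 → ℂ) → ℂ) : jac3 f e h = fun x =>
    (minor2 1 2 f e x * pd 0 h x - minor2 0 2 f e x * pd 1 h x) + minor2 0 1 f e x * pd 2 h x := by
  funext x
  simp only [jac3, Matrix.det_fin_three, Matrix.of_apply, minor2]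
  simp
  ring

theorem hol_jac3 (hf : Hol f) (he : Hol e) (hh : Hol h) : Hol (jac3 f e h) := by
  rw [jac3_eq]
  exact AnalyticAt.add (AnalyticAt.sub (AnalyticAt.mul (hol_minor2 hf he 1 2) (hol_pd hh 0))
    (AnalyticAt.mul (hol_minor2 hf he 0 2) (hol_pd hh 1)))
    (AnalyticAt.mul (hol_minor2 hf he 0 1) (hol_pd hh 2))

theorem ser_jac3 (hf : Hol f) (he : Hol e) (hh : Hol h) :
    ser (jac3 f e h) = jac (ser f) (ser e) (ser h) := by
  have m := hol_minor2 hf he
  have a0 : Hol (fun x => minor2 1 2 f e x * pd 0 h x) := AnalyticAt.mul (m 1 2) (hol_pd hh 0)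
  have a1 : Hol (fun x => minor2 0 2 f e x * pd 1 h x) := AnalyticAt.mul (m 0 2) (hol_pd hh 1)
  have a2 : Hol (fun x => minor2 0 1 f e x * pd 2 h x) := AnalyticAt.mul (m 0 1) (hol_pd hh 2)
  have a01 : Hol (fun x => minor2 1 2 f e x * pd 0 h x - minor2 0 2 f e x * pd 1 h x) :=
    AnalyticAt.sub a0 a1
  rw [jac3_eq, ser_add a01 a2, ser_sub a0 a1, ser_mul (m 1 2) (hol_pd hh 0),
    ser_mul (m 0 2) (hol_pd hh 1), ser_mul (m 0 1) (hol_pd hh 2), ser_minor2 hf he,
    ser_minor2 hf he, ser_minor2 hf he, ser_pd hh, ser_pd hh, ser_pd hh]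
  simp only [jac, det, dot, cr_zero, cr_one, cr_two, gr]
  ring

theorem hol_four (hf : Hol f) (he : Hol e) : ∀ j, Hol (![f, minor2 0 1 f e, minor2 0 2 f e,
    minor2 1 2 f e] j) := by
  intro j
  fin_cases j
  · exact hf
  · exact hol_minor2 hf he 0 1
  · exact hol_minor2 hf he 0 2
  · exact hol_minor2 hf he 1 2

theorem hol_three {a b c : (Fin 3 → ℂ) → ℂ} (ha : Hol a) (hb : Hol b) (hc : Hol c) :
    ∀ j, Hol (![a, b, c] j) := by
  intro j
  fin_cases j
  · exact ha
  · exact hb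
  · exact hc

theorem serIdeal_four (hf : Hol f) (he : Hol e) :
    serIdeal ![f, minor2 0 1 f e, minor2 0 2 f e, minor2 1 2 f e] =
      Mn (ser f) (cr (gr (ser f)) (gr (ser e))) := by
  refine le_antisymm (Ideal.span_le.2 ?_) (Ideal.span_le.2 ?_)
  · rintro _ ⟨j, rfl⟩
    fin_cases j
    · exact Ideal.subset_span (Or.inl rfl)
    · change ser (minor2 0 1 f e) ∈ _
      rw [ser_minor2 hf he]
      exact Ideal.subset_span (Or.inr (Or.inr (Or.inr (cr_two _ _).symm)))
    · change ser (minor2 0 2 f e) ∈ _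
      rw [ser_minor2 hf he]
      have h1 : cr (gr (ser f)) (gr (ser e)) 1 ∈ Mn (ser f) (cr (gr (ser f)) (gr (ser e))) :=
        Ideal.subset_span (Or.inr (Or.inr (Or.inl rfl)))
      have h2 := (Mn (ser f) (cr (gr (ser f)) (gr (ser e)))).neg_mem h1
      rwa [cr_one, neg_sub] at h2
    · change ser (minor2 1 2 f e) ∈ _
      rw [ser_minor2 hf he]
      exact Ideal.subset_span (Or.inr (Or.inl (cr_zero _ _).symm))
  · have m01 : ser (minor2 0 1 f e) ∈
        serIdeal ![f, minor2 0 1 f e, minor2 0 2 f e, minor2 1 2 f e] :=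
      Ideal.subset_span ⟨1, rfl⟩
    have m02 : ser (minor2 0 2 f e) ∈
        serIdeal ![f, minor2 0 1 f e, minor2 0 2 f e, minor2 1 2 f e] :=
      Ideal.subset_span ⟨2, rfl⟩
    have m12 : ser (minor2 1 2 f e) ∈
        serIdeal ![f, minor2 0 1 f e, minor2 0 2 f e, minor2 1 2 f e] :=
      Ideal.subset_span ⟨3, rfl⟩
    rw [ser_minor2 hf he] at m01 m02 m12
    rintro x (rfl | rfl | rfl | rfl)
    · exact Ideal.subset_span ⟨0, rfl⟩
    · change cr (gr (ser f)) (gr (ser e)) 0 ∈ _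
      rw [cr_zero]
      exact m12
    · change cr (gr (ser f)) (gr (ser e)) 1 ∈ _
      rw [cr_one, ← neg_sub]
      exact neg_mem m02
    · change cr (gr (ser f)) (gr (ser e)) 2 ∈ _
      rw [cr_two]
      exact m01

theorem milnor_iff_ser (hf : Hol f) (μ : ℕ) : Milnor f μ ↔
    Fin' (I3 (gr (ser f) 0) (gr (ser f) 1) (gr (ser f) 2)) ∧
      dm (I3 (gr (ser f) 0) (gr (ser f) 1) (gr (ser f) 2)) = μ := by
  have h1 : (fun i => pd i f) = ![pd 0 f, pd 1 f, pd 2 f] := by
    funext i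
    fin_cases i <;> rfl
  rw [Milnor, h1, colength_iff_ser (hol_three (hol_pd hf 0) (hol_pd hf 1) (hol_pd hf 2)),
    serIdeal_three, ser_pd hf, ser_pd hf, ser_pd hf]
  rfl

/-- **The Le-Greuel formula for germs of functions on `ℂ³`.** -/
theorem leGreuel_germ (hF : FordP) (hf : Hol f) (he : Hol e) (hh : Hol h) (f0 : f 0 = 0)
    (e0 : e 0 = 0) (h0 : h 0 = 0) (d0 : ∀ i, pd i f 0 = 0) {μ b c : ℕ} (hμ : Milnor f μ)
    (hb : Colength ![f, e, jac3 f e h] b) (hc : Colength ![f, e, h] c) :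
    ∃ a, Colength ![f, minor2 0 1 f e, minor2 0 2 f e, minor2 1 2 f e] a ∧
      a + c = μ + 1 + b := by
  rw [milnor_iff_ser hf] at hμ
  rw [colength_iff_ser (hol_three hf he (hol_jac3 hf he hh)), serIdeal_three, ser_jac3 hf he hh]
    at hb
  rw [colength_iff_ser (hol_three hf he hh), serIdeal_three] at hc
  obtain ⟨h1, h2⟩ := leGreuel hF regP (f := ser f) (e := ser e) (h := ser h)
    (by rw [constantCoeff_ser hf, f0]) (by rw [constantCoeff_ser he, e0])
    (by rw [constantCoeff_ser hh, h0])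
    (fun i => by
      have h3 : gr (ser f) i = ser (pd i f) := (ser_pd hf i).symm
      rw [h3, constantCoeff_ser (hol_pd hf i), d0]) hμ.1 hc.1 hb.1
  refine ⟨dm (Mn (ser f) (cr (gr (ser f)) (gr (ser e)))), ?_, ?_⟩
  · rw [colength_iff_ser (hol_four hf he), serIdeal_four hf he]
    exact ⟨h1, rfl⟩
  · have e1 : dm (I3 (ser f) (ser e) (ser h)) = c := hc.2
    have e2 : dm (I3 (ser f) (ser e) (jac (ser f) (ser e) (ser h))) = b := hb.2
    rw [← e1, ← e2, ← hμ.2]
    exact h2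

end Vale.Agent.P298.H137
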