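import Vale.Agent.P298.H137.End
import Vale.Agent.P298.H824.Props

/-!
# P298, block LG: the Le-Greuel formula in `ℂ³` and the end of the argument (unconditional)
-/

noncomputable section

namespace Vale.Agent.P298.H137.Main

open Filter Topology Metric Vale.Agent.P298 Vale.Agent.P298.H766 Vale.Agent.P298.H119
  Vale.Agent.P298.H137

theorem ford : FordP := fordP P298.H824.fordT

/-- **Le-Greuel in `ℂ³`**: for germs `f`, `e`, `h` at `0 ∈ ℂ³` which vanish at `0`, `f` with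
critical point at `0`, `dim O/(f, M(f, e)) + dim O/(f, e, h) = μ(f) + 1 + dim O/(f, e, jac(f, e, h))`
as soon as the terms `μ(f)`, `dim O/(f, e, h)`, `dim O/(f, e, jac(f, e, h))` are finite; here
`M(f, e)` are the `2 × 2` minors of `d(f, e)`. -/
theorem leGreuel {f e h : (Fin 3 → ℂ) → ℂ} (hf : Hol f) (he : Hol e) (hh : Hol h) (f0 : f 0 = 0)
    (e0 : e 0 = 0) (h0 : h 0 = 0) (d0 : ∀ i, pd i f 0 = 0) {μ b c : ℕ} (hμ : Milnor f μ)
    (hb : Colength ![f, e, jac3 f e h] b) (hc : Colength ![f, e, h] c) :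
    ∃ a, Colength ![f, minor2 0 1 f e, minor2 0 2 f e, minor2 1 2 f e] a ∧
      a + c = μ + 1 + b :=
  leGreuel_germ ford hf he hh f0 e0 h0 d0 hμ hb hc

variable {F E H : (Fin 3 → ℂ) → ℂ → ℂ} {r : ℝ} {μ b c : ℕ}

theorem companions (hr : 0 < r) (hF : IsHolFamily r F)
    (hE : AnalyticAt ℂ (fun p : (Fin 3 → ℂ) × ℂ => E p.1 p.2) (0, 0))
    (hH : AnalyticAt ℂ (fun p : (Fin 3 → ℂ) × ℂ => H p.1 p.2) (0, 0))
    (E0 : E 0 0 = 0) (H0 : H 0 0 = 0)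
    (hμ : ∀ t ∈ ball (0 : ℂ) r, Milnor (F · t) μ) (hμ0 : μ ≠ 0)
    (hb : Colength ![(F · 0), (E · 0), jac3 (F · 0) (E · 0) (H · 0)] b)
    (hc : Colength ![(F · 0), (E · 0), (H · 0)] c)
    (hlow : ∀ᶠ t in 𝓝 (0 : ℂ), ∀ b', Colength ![(F · t), (E · t),
      jac3 (F · t) (E · t) (H · t)] b' → b ≤ b') :
    ∃ r', 0 < r' ∧ r' ≤ r ∧ Companion r' F E ∧ Companion2 r' F E (fun x t => H x t - H 0 t) :=
  H137.companions ford hr hF hE hH E0 H0 hμ hμ0 hb hc hlow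

theorem topRightTrivial (hr : 0 < r) (hF : IsHolFamily r F)
    (hE : AnalyticAt ℂ (fun p : (Fin 3 → ℂ) × ℂ => E p.1 p.2) (0, 0))
    (hH : AnalyticAt ℂ (fun p : (Fin 3 → ℂ) × ℂ => H p.1 p.2) (0, 0))
    (E0 : E 0 0 = 0) (H0 : H 0 0 = 0)
    (hμ : ∀ t ∈ ball (0 : ℂ) r, Milnor (F · t) μ) (hμ0 : μ ≠ 0)
    (hb : Colength ![(F · 0), (E · 0), jac3 (F · 0) (E · 0) (H · 0)] b)
    (hc : Colength ![(F · 0), (E · 0), (H · 0)] c)
    (hlow : ∀ᶠ t in 𝓝 (0 : ℂ), ∀ b', Colength ![(F · t), (E · t),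
      jac3 (F · t) (E · t) (H · t)] b' → b ≤ b') : TopRightTrivial r F :=
  H137.topRightTrivial ford hr hF hE hH E0 H0 hμ hμ0 hb hc hlow

end Vale.Agent.P298.H137.Main
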