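import Vale.Agent.P298.H137.Main
import Vale.Agent.P298.H373.Inst
import Vale.Agent.P298.H967.Mon
import Vale.Agent.P298.H967.Ideal
import Vale.Agent.P298.H990.Latt
import Vale.Agent.P298.H513.Mult

/-!
# P298, endgame (helper137): the inequality on one surface

If `e, e' ∈ I_k(f)` for all `k < a` and `(f, e, J)`, `J = jac (f, e, e')`, has colength `B`, then
`dim O / I_N(f) ≤ B (N + C)² / (2 a (2 a + 1))`.
-/

noncomputable section

namespace Vale.Agent.P298.H137

open Filter Topology Metric Module Vale.Agent.P298 Vale.Agent.P298.H766 Vale.Agent.P298.H379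
  Vale.Agent.P298.H967 Vale.Agent.P298.H990

theorem hol_pow_mul {n : ℕ} {e J : (Fin n → ℂ) → ℂ} (he : Hol e) (hJ : Hol J) (i j : ℕ) :
    Hol (fun x => e x ^ i * J x ^ j) :=
  AnalyticAt.mul (AnalyticAt.pow he i) (AnalyticAt.pow hJ j)

theorem ser_pow {n : ℕ} {e : (Fin n → ℂ) → ℂ} (he : Hol e) (i : ℕ) :
    ser (fun x => e x ^ i) = ser e ^ i := by
  have h : Hol (fun x => e x ^ i) := AnalyticAt.pow he i
  rw [ser_eq he, ser_eq h, ← map_pow]
  rfl

theorem ser_pow_mul {n : ℕ} {e J : (Fin n → ℂ) → ℂ} (he : Hol e) (hJ : Hol J) (i j : ℕ) :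
    ser (fun x => e x ^ i * J x ^ j) = ser e ^ i * ser J ^ j := by
  have h1 : Hol (fun x => e x ^ i) := AnalyticAt.pow he i
  have h2 : Hol (fun x => J x ^ j) := AnalyticAt.pow hJ j
  rw [ser_mul h1 h2, ser_pow he, ser_pow hJ]

/-- finitely many monomials generate the ideal of all monomials outside a finite set -/
theorem exists_list {n : ℕ} {f e J : (Fin n → ℂ) → ℂ} (hf : Hol f) (he : Hol e) (hJ : Hol J)
    (T : Finset (ℕ × ℕ)) : ∃ (k : ℕ) (s : Fin k → (Fin n → ℂ) → ℂ), (∀ j, Hol (s j)) ∧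
      (∀ j, s j = f ∨ ∃ p ∉ T, s j = fun x => e x ^ p.1 * J x ^ p.2) ∧
      serIdeal s = Ideal.span (insert (ser f) ((fun p : ℕ × ℕ => ser e ^ p.1 * ser J ^ p.2) ''
        (T : Set (ℕ × ℕ))ᶜ)) := by
  classical
  -- a bound for the exponents in `T`
  obtain ⟨A, hA⟩ : ∃ A : ℕ, ∀ p ∈ T, p.1 < A ∧ p.2 < A := by
    refine ⟨(T.sup fun p => max p.1 p.2) + 1, fun p hp => ?_⟩
    have h1 : max p.1 p.2 ≤ T.sup fun p => max p.1 p.2 :=
      Finset.le_sup (f := fun p : ℕ × ℕ => max p.1 p.2) hp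
    omega
  set P : Finset (ℕ × ℕ) := (Finset.range (A + 1) ×ˢ Finset.range (A + 1)).filter (· ∉ T) with hP
  let g : ℕ × ℕ → (Fin n → ℂ) → ℂ := fun p x => e x ^ p.1 * J x ^ p.2
  let s : Fin (P.card + 1) → (Fin n → ℂ) → ℂ :=
    Fin.cons (α := fun _ => (Fin n → ℂ) → ℂ) f (fun i => g (P.equivFin.symm i))
  have hs : ∀ j, s j = f ∨ ∃ p ∉ T, s j = fun x => e x ^ p.1 * J x ^ p.2 := by
    intro j
    refine Fin.cases (Or.inl rfl) (fun i => Or.inr ?_) j
    have h1 : ∀ q ∈ P, q ∉ T := fun q hq => (Finset.mem_filter.1 hq).2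
    exact ⟨_, h1 _ (P.equivFin.symm i).2, rfl⟩
  have hh : ∀ j, Hol (s j) := by
    intro j
    rcases hs j with h | ⟨p, -, h⟩
    · rw [h]; exact hf
    · rw [h]; exact hol_pow_mul he hJ _ _
  refine ⟨P.card + 1, s, hh, hs, le_antisymm (Ideal.span_le.2 ?_) (Ideal.span_le.2 ?_)⟩
  · rintro _ ⟨j, rfl⟩
    refine Ideal.subset_span ?_
    rcases hs j with h | ⟨p, hp, h⟩
    · left
      change ser (s j) = _
      rw [h]
    · right
      refine ⟨p, hp, ?_⟩
      change _ = ser (s j)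
      rw [h, ser_pow_mul he hJ]
  · rintro x (rfl | ⟨p, hp, rfl⟩)
    · exact Ideal.subset_span ⟨0, rfl⟩
    · change ser e ^ p.1 * ser J ^ p.2 ∈ serIdeal s
      set q : ℕ × ℕ := (min p.1 A, min p.2 A) with hq
      have hqT : q ∉ T := by
        intro h
        have h1 := hA q h
        have h2 : p = q := by
          simp only [hq] at h1 ⊢
          refine Prod.ext ?_ ?_ <;> simp only <;> omega
        exact hp (h2 ▸ h)
      have hqP : q ∈ P := by
        rw [hP, Finset.mem_filter, Finset.mem_product, Finset.mem_range, Finset.mem_range]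
        refine ⟨⟨?_, ?_⟩, hqT⟩ <;> simp only [hq] <;> omega
      have h1 : ser e ^ q.1 * ser J ^ q.2 ∈ serIdeal s := by
        refine Ideal.subset_span ⟨Fin.succ (P.equivFin ⟨q, hqP⟩), ?_⟩
        change ser (g (P.equivFin.symm (P.equivFin ⟨q, hqP⟩))) = _
        rw [Equiv.symm_apply_apply]
        exact ser_pow_mul he hJ _ _
      have h2 : ser e ^ p.1 * ser J ^ p.2 =
          (ser e ^ (p.1 - q.1) * ser J ^ (p.2 - q.2)) * (ser e ^ q.1 * ser J ^ q.2) := by
        have e1 : p.1 = (p.1 - q.1) + q.1 := by simp only [hq]; omega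
        have e2 : p.2 = (p.2 - q.2) + q.2 := by simp only [hq]; omega
        conv_lhs => rw [e1, e2]
        rw [pow_add, pow_add]
        ring
      rw [h2]
      exact Ideal.mul_mem_left _ _ h1

/-- a system of parameters of length three: the second element is regular modulo the first -/
theorem reg_second {a b c : S3} (ha : MvPowerSeries.constantCoeff a = 0)
    (hb : MvPowerSeries.constantCoeff b = 0) (hc : MvPowerSeries.constantCoeff c = 0)
    (hfin : Fin' (I3 a b c)) : ∀ x, b * x ∈ Ideal.span {a} → x ∈ Ideal.span {a} := by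
  have h := H25.isWeaklyRegular_of_finite (K := ℂ) (n := 3) ![a, b, c]
    (by intro i; fin_cases i <;> simpa)
    (by
      have h1 : Ideal.span (Set.range ![a, b, c]) = I3 a b c := by
        rw [I3, ← Ideal.span_union]
        congr 1
        ext x
        constructor
        · rintro ⟨j, rfl⟩
          fin_cases j
          · exact Or.inl (Or.inl rfl)
          · exact Or.inl (Or.inr rfl)
          · exact Or.inr rfl
        · rintro ((rfl | rfl) | rfl)
          · exact ⟨0, rfl⟩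
          · exact ⟨1, rfl⟩
          · exact ⟨2, rfl⟩
      rw [h1]
      exact hfin)
  rw [RingTheory.Sequence.isWeaklyRegular_iff_Fin] at h
  have h1 := h ⟨1, by simp⟩
  rw [isSMulRegular_quotient_iff_mem_of_smul_mem] at h1
  intro x hx
  have h2 : (Ideal.ofList (List.take 1 (List.ofFn ![a, b, c])) • ⊤ : Submodule S3 S3) =
      Ideal.span {a} := by
    rw [smul_eq_mul, Ideal.mul_top]
    simp
  have h3 := h1 x (by
    change b • x ∈ _
    rw [smul_eq_mul]
    change b * x ∈ (Ideal.ofList (List.take 1 (List.ofFn ![a, b, c])) • ⊤ : Submodule S3 S3)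
    rw [h2]
    exact hx)
  change x ∈ (Ideal.ofList (List.take 1 (List.ofFn ![a, b, c])) • ⊤ : Submodule S3 S3) at h3
  rw [h2] at h3
  exact h3

/-- the colength of the ideal of the monomials in `e, J` outside `T`, modulo `f` -/
theorem colength_mon {f e J : (Fin 3 → ℂ) → ℂ} (hf : Hol f) (he : Hol e) (hJ : Hol J)
    (f0 : f 0 = 0) (e0 : e 0 = 0) (J0 : J 0 = 0) {B : ℕ} (hB : Colength ![f, e, J] B)
    (T : Finset (ℕ × ℕ)) (hT : IsLowerSet (T : Set (ℕ × ℕ))) :
    ∃ (k : ℕ) (s : Fin k → (Fin 3 → ℂ) → ℂ), (∀ j, Hol (s j)) ∧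
      (∀ j, s j = f ∨ ∃ p ∉ T, s j = fun x => e x ^ p.1 * J x ^ p.2) ∧
      Colength s (T.card * B) := by
  obtain ⟨k, s, hs, hs', hser⟩ := exists_list hf he hJ T
  refine ⟨k, s, hs, hs', ?_⟩
  rw [colength_iff_ser hs, hser]
  rw [colength_iff_ser (hol_three hf he hJ), serIdeal_three] at hB
  have cf : MvPowerSeries.constantCoeff (ser f) = 0 := by rw [constantCoeff_ser hf, f0]
  have ce : MvPowerSeries.constantCoeff (ser e) = 0 := by rw [constantCoeff_ser he, e0]
  have cJ : MvPowerSeries.constantCoeff (ser J) = 0 := by rw [constantCoeff_ser hJ, J0]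
  have h3 : Ideal.span {ser f, ser e, ser J} = I3 (ser f) (ser e) (ser J) := by
    rw [I3, ← Ideal.span_union]
    congr 1
    ext x
    simp only [Set.mem_insert_iff, Set.mem_singleton_iff, Set.mem_union]
    tauto
  have hfin : Fin' (I3 (ser f) (ser J) (ser e)) := by
    rw [I3_s23]
    exact hB.1
  have h4 := finrank_quot_insert_mon (k := ℂ) (R := S3) (f := ser f) (a := ser e) (b := ser J)
    (reg_second cf cJ ce hfin) (regP (ser f) (ser J) (ser e) cf cJ ce hfin)
    (by rw [h3]; exact hB.1) T hT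
  rw [h3, hB.2] at h4
  exact h4

/-- **The inequality on one surface.** -/
theorem one_surf {f e e' : (Fin 3 → ℂ) → ℂ} (hf : Hol f) (he : Hol e) (he' : Hol e')
    (f0 : f 0 = 0) (e0 : e 0 = 0) (e0' : e' 0 = 0) (d0 : ∀ i, pd i f 0 = 0) {a : ℝ} (ha : 0 < a)
    (hI : ∀ k, 0 < k → k < a → InI f k e) (hI' : ∀ k, 0 < k → k < a → InI f k e') {D B : ℕ}
    (hD : Colength ![f, e, e'] D) (hB : Colength ![f, e, jac3 f e e'] B) {N : ℝ} (hN : 0 < N) :
    Module.Finite ℂ (AnFun 3 ⧸ IK f N) ∧ (finrank ℂ (AnFun 3 ⧸ IK f N) : ℝ) ≤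
      B * ((N + 1 + a + (2 * a + 1) / 2) ^ 2 / (2 * a * (2 * a + 1))) := by
  have hβ : (0 : ℝ) < 2 * a + 1 := by linarith
  obtain ⟨r, hr, hmult⟩ := H513.mult hf he he' f0 e0 e0' hD
  obtain ⟨k, s, hs, hs', hcol⟩ := colength_mon hf he (hol_jac3 hf he he') f0 e0
    (jac3_zero d0 _ _) hB (tri a (2 * a + 1) (N + 1)) (isLowerSet_tri ha hβ)
  obtain ⟨hfin, hrk⟩ := hasColength_of_colength hs hcol
  have hle : locIdeal (Set.range s) ≤ IK f N := by
    rw [locIdeal_range _ hs]
    refine sup_le (nul_le_IK hN) (Ideal.span_le.2 ?_)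
    rintro _ ⟨j, rfl⟩
    refine inI_mem_IK ?_
    change InI f N (s j)
    rcases hs' j with h | ⟨p, hp, h⟩
    · rw [h]
      exact inI_of_eq_zero hN hf (Eventually.of_forall fun _ hx => hx)
    · rw [h]
      refine inI_monomial_jac H373.areaI H373.areaII ha hf hI hI' ⟨r, hr, D, fun q => ?_⟩ hN ?_
      · exact hmult r le_rfl q
      · rw [mem_tri ha hβ, not_lt] at hp
        linarith
  have hfin' : Module.Finite ℂ (AnFun 3 ⧸ IK f N) :=
    Module.Finite.of_surjective (Ideal.Quotient.factorₐ ℂ hle).toLinearMap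
      (Ideal.Quotient.factor_surjective hle)
  refine ⟨hfin', ?_⟩
  have h1 : finrank ℂ (AnFun 3 ⧸ IK f N) ≤ (tri a (2 * a + 1) (N + 1)).card * B := by
    rw [← hrk]
    exact LinearMap.finrank_le_finrank_of_surjective
      (f := (Ideal.Quotient.factorₐ ℂ hle).toLinearMap) (Ideal.Quotient.factor_surjective hle)
  have h2 := card_tri_le (N := N + 1) ha hβ
  calc (finrank ℂ (AnFun 3 ⧸ IK f N) : ℝ) ≤ (((tri a (2 * a + 1) (N + 1)).card * B : ℕ) : ℝ) := by
        exact_mod_cast h1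
    _ = B * ((tri a (2 * a + 1) (N + 1)).card : ℝ) := by push_cast; ring
    _ ≤ _ := mul_le_mul_of_nonneg_left h2 (Nat.cast_nonneg _)

end Vale.Agent.P298.H137
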